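import Vale.Agent.P032.H266.FamZ
import Vale.Agent.P032.H448.Win
import Vale.Agent.P032.H429.Corner

/-!
# P032: windows of a tame centre of order six

`Thin259 T z` : the points of the unit circle of `z` with at most two colours are dense in it.
`tame_att259` : near `z` all palettes have at most two colours, then all colours are attached.
`tame_win259` : if moreover `Thin259 T z` and every colour is in an exact pair arc of the circle,
then `z` has windows (`WinData`) and the window of every colour contains an honest direction.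
`tame_hd259` : an honest direction of every colour (no condition on the circle).
-/

open Set Filter Topology Metric

noncomputable section

namespace Vale.Agent.P032.H259

open Vale.Agent.P032.Six Vale.Agent.P032.Sweep Vale.Agent.P032.S5.H767 Vale.Agent.P032.S5.H122
  Vale.Agent.P032.H429 Vale.Agent.P032.H187 Vale.Agent.P032.H158 Vale.Agent.P032.H448
  Vale.Agent.P032.H266

variable {U : Fin 6 → Set ℂ} {T : ℂ → Set (Fin 6)} {z : ℂ}

/-- minimality -/
abbrev Mh259 (U : Fin 6 → Set ℂ) (T : ℂ → Set (Fin 6)) : Prop :=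
  ∀ z, 4 ≤ (T z).ncard → ∀ s, s ⊆ T z → s ≠ T z →
    ¬ ∀ᶠ w in 𝓝 z, ∃ i ∈ s, w ∈ U i ∨ (w ∈ XX U ∧ i ∈ Pal U w)

/-- the points with at most two colours are dense in the unit circle of `z` -/
def Thin259 (T : ℂ → Set (Fin 6)) (z : ℂ) : Prop := ∀ s : ℝ, ∃ᶠ t in 𝓝 s, (T (pt z t)).ncard ≤ 2

/-- **all colours of a tame point are attached** -/
theorem tame_att259 (h : Irr U T) (hmin : Mh259 U T) (h4 : 4 ≤ (T z).ncard)
    (ht : ∀ᶠ w in 𝓝[≠] z, (T w).ncard ≤ 2) {i : Fin 6} (hi : i ∈ T z) : Att T z i := by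
  refine h.att_of_two429 hmin h4 hi ?_
  rw [eventually_nhdsWithin_iff] at ht
  exact ht.mono fun w hw hwz _ => hw hwz

/-- **honest directions of a tame point** -/
theorem tame_hd259 (h : Irr U T) (hmin : Mh259 U T) (h4 : 4 ≤ (T z).ncard)
    (ht : ∀ᶠ w in 𝓝[≠] z, (T w).ncard ≤ 2) {i : Fin 6} (hi : i ∈ T z) : (HD U z i).Nonempty := by
  obtain ⟨x, hx, -⟩ := hd_att h (tame_att259 h hmin h4 ht hi)
  exact ⟨x, hx⟩

theorem ncard_all259 (hz : ∀ i, i ∈ T z) : (T z).ncard = 6 := by
  have : T z = univ := eq_univ_of_forall hz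
  rw [this, ncard_univ, Nat.card_eq_fintype_card, Fintype.card_fin]

/-- the constant palettes are pairs -/
theorem thin_pair259 (h : Irr U T) (hz : ∀ i, i ∈ T z) (hth : Thin259 T z) {s : ℝ}
    (hs : s ∈ Lc T z) : ∃ a b, a ≠ b ∧ T (pt z s) = {a, b} := by
  have h2 := (two_out h hs fun i _ => hz i).1
  have hs' : ∀ᶠ v in 𝓝 s, T (pt z v) = T (pt z s) := hs
  obtain ⟨t, h3, h4⟩ := ((hth s).and_eventually hs').exists
  rw [h4] at h3
  have h5 : (T (pt z s)).ncard = 2 := by omega
  obtain ⟨a, b, hab, he⟩ := Set.ncard_eq_two.1 h5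
  exact ⟨a, b, hab, he⟩

theorem arc_pt259 {s : ℝ} {P : Set (Fin 6)} (hs : s ∈ Lc T z) (hP : T (pt z s) = P) :
    Arc T z (z + cis (s * (Real.pi / 3))) P := by
  have e : pt z s = z + cis (s * (Real.pi / 3)) := by unfold pt; ring
  rw [← e]
  exact ⟨dist_pt z s, (Lc_circle hs).mono fun q hq => by rw [hq, hP]⟩

/-- **windows of a tame centre of order six** -/
theorem tame_win259 (h : Irr U T) (hmin : Mh259 U T) (hz : ∀ i, i ∈ T z)
    (ht : ∀ᶠ w in 𝓝[≠] z, (T w).ncard ≤ 2) (hth : Thin259 T z)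
    (hc : ∀ i, ∃ s ∈ Lc T z, i ∈ T (pt z s)) :
    ∃ L R : Fin 6 → ℝ, WinData T z L R ∧ (∀ i, Hon U z L R i) ∧ Wins448 U T z L R := by
  have h6 := ncard_all259 hz
  have hatt : ∀ i, Att T z i := fun i => tame_att259 h hmin (by omega) ht (hz i)
  have hori : ∀ s ∈ Lc T z, ∀ a b, a ≠ b → T (pt z s) = {a, b} →
      Ori429 U z (s * (Real.pi / 3)) a b ∨ Ori429 U z (s * (Real.pi / 3)) b a := by
    intro s hs a b hab hT
    rcases h.collar_of_att hab (hatt a) (hatt b) (arc_pt259 hs hT) with hC | hC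
    · exact Or.inl (h.side_of_collar hC)
    · exact Or.inr (h.side_of_collar hC)
  have hside : ∀ i, ∃ θ, Side429 U z (cis θ) i := by
    intro i
    obtain ⟨s, hs, hi⟩ := hc i
    obtain ⟨a, b, hab, hT⟩ := thin_pair259 h hz hth hs
    have hneg : ∀ x, Side429 U z (-cis (s * (Real.pi / 3))) x → ∃ θ, Side429 U z (cis θ) x := by
      intro x hx
      refine ⟨s * (Real.pi / 3) + Real.pi, ?_⟩
      have e0 : -cis (s * (Real.pi / 3)) = cis (s * (Real.pi / 3) + Real.pi) := by
        rw [cis_add_pi326]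
      rwa [e0] at hx
    rw [hT] at hi
    rcases hori s hs a b hab hT with h1 | h1
    · rcases hi with rfl | hi
      · exact ⟨_, h1.1⟩
      · rw [mem_singleton_iff] at hi
        subst hi
        exact hneg _ h1.2
    · rcases hi with rfl | hi
      · exact hneg _ h1.2
      · rw [mem_singleton_iff] at hi
        subst hi
        exact ⟨_, h1.1⟩
  obtain ⟨L, R, W⟩ := exists_wins448 h hz hside
  refine ⟨L, R, W.winData h (fun s hs => ?_), fun i => ?_, W⟩
  · obtain ⟨a, b, hab, hT⟩ := thin_pair259 h hz hth hs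
    rcases hori s hs a b hab hT with h1 | h1
    · exact ⟨a, b, hT, hab, h1⟩
    · exact ⟨b, a, by rw [hT, pair_comm], hab.symm, h1⟩
  · exact hon_att h (hatt i) fun s hs => (W i).mem s (Or.inl hs)

/-- **windows or a silent colour** -/
theorem tame_cases259 (h : Irr U T) (hmin : Mh259 U T) (hz : ∀ i, i ∈ T z)
    (ht : ∀ᶠ w in 𝓝[≠] z, (T w).ncard ≤ 2) (hth : Thin259 T z) :
    (∃ L R : Fin 6 → ℝ, WinData T z L R ∧ (∀ i, Hon U z L R i) ∧ Wins448 U T z L R) ∨
      ∃ i, ∀ s ∈ Lc T z, i ∉ T (pt z s) := by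
  by_cases hc : ∀ i, ∃ s ∈ Lc T z, i ∈ T (pt z s)
  · exact Or.inl (tame_win259 h hmin hz ht hth hc)
  · push Not at hc
    exact Or.inr hc

end Vale.Agent.P032.H259
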