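import Vale.Agent.P032.H259.WedgeS
import Vale.Agent.P032.H429.Hull

/-!
# P032: prism centres, first part

`Prism259 T z c` : a centre with six colours `c 0, .., c 5`, the pairs `c i, c (i + 2)` and
`c i, c (i + 3)` are exact.  All colours are solid, all exact arcs are oriented, and the solid
directions are dense.
-/

open Set Filter Topology Metric

noncomputable section

namespace Vale.Agent.P032.Six

/-- minimality (= `Mn`, without its import) -/
abbrev Mq259 (U : Fin 6 → Set ℂ) (T : ℂ → Set (Fin 6)) : Prop :=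
  ∀ z, 4 ≤ (T z).ncard → ∀ s, s ⊆ T z → s ≠ T z →
    ¬ ∀ᶠ w in 𝓝 z, ∃ i ∈ s, w ∈ U i ∨ (w ∈ XX U ∧ i ∈ Pal U w)

/-- a centre whose exact pairs contain a prism; the missing pairs form the hexagon `c 0 .. c 5` -/
structure Prism259 (T : ℂ → Set (Fin 6)) (z : ℂ) (c : Fin 6 → Fin 6) : Prop where
  inj : Function.Injective c
  all : ∀ i, i ∈ T z
  e2 : ∀ i, ∃ q, dist q z = 1 ∧ T q = {c i, c (i + 2)}
  e3 : ∀ i, ∃ q, dist q z = 1 ∧ T q = {c i, c (i + 3)}

namespace Prism259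

variable {U : Fin 6 → Set ℂ} {T : ℂ → Set (Fin 6)} {z : ℂ} {c : Fin 6 → Fin 6}

theorem surj (P : Prism259 T z c) (x : Fin 6) : ∃ i, c i = x :=
  (Finite.injective_iff_surjective.1 P.inj) x

theorem ne (P : Prism259 T z c) {i j : Fin 6} (h : i ≠ j) : c i ≠ c j := fun h1 => h (P.inj h1)

theorem six (P : Prism259 T z c) : (T z).ncard = 6 := by
  have : T z = univ := eq_univ_of_forall P.all
  rw [this, Set.ncard_univ]
  simp

theorem cases6 (i j : Fin 6) : j = i ∨ j = i + 1 ∨ j = i + 2 ∨ j = i + 3 ∨ j = i + 4 ∨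
    j = i + 5 := by
  revert i j
  decide

/-- the split at an exact pair `c i, c (i + 2)` -/
theorem tau_split (P : Prism259 T z c) (h : Irr U T) (hmn : Mq259 U T) {i : Fin 6} {q : ℂ}
    (hq : dist q z = 1) (hT : T q = {c i, c (i + 2)}) :
    tau T z (Complex.I * (q - z)) ⊆ {c (i + 1)} ∨
      tau T z (-(Complex.I * (q - z))) ⊆ {c (i + 1)} := by
  have hd : ∀ i : Fin 6, i ≠ i + 2 ∧ i ≠ i + 1 ∧ i + 2 ≠ i + 1 ∧ i ≠ i + 3 ∧ i ≠ i + 4 ∧
      i ≠ i + 5 ∧ i + 2 ≠ i + 3 ∧ i + 2 ≠ i + 4 ∧ i + 2 ≠ i + 5 ∧ i + 1 ≠ i + 3 ∧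
      i + 1 ≠ i + 4 ∧ i + 1 ≠ i + 5 ∧ i + 1 + 2 = i + 3 ∧ i + 1 + 3 = i + 4 ∧
      i + 5 + 2 = i + 1 := by decide
  obtain ⟨d1, d2, d3, d4, d5, d6, d7, d8, d9, d10, d11, d12, d13, d14, d15⟩ := hd i
  have hX2 : ({c (i + 1)} : Set (Fin 6)).ncard ≤ 2 := by
    rw [Set.ncard_singleton]; norm_num
  have hz : T z = {c i, c (i + 2)} ∪ ({c (i + 1)} ∪ {c (i + 3), c (i + 4), c (i + 5)}) := by
    refine (eq_univ_of_forall P.all).trans (eq_univ_of_forall fun x => ?_).symm
    obtain ⟨j, rfl⟩ := P.surj x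
    rcases cases6 i j with rfl | rfl | rfl | rfl | rfl | rfl
    · exact Or.inl (Or.inl rfl)
    · exact Or.inr (Or.inl rfl)
    · exact Or.inl (Or.inr rfl)
    · exact Or.inr (Or.inr (Or.inl rfl))
    · exact Or.inr (Or.inr (Or.inr (Or.inl rfl)))
    · exact Or.inr (Or.inr (Or.inr (Or.inr rfl)))
  have haY : c i ∉ ({c (i + 3), c (i + 4), c (i + 5)} : Set (Fin 6)) := by
    rintro (h1 | h1 | h1)
    · exact P.ne d4 h1
    · exact P.ne d5 h1
    · exact P.ne d6 h1
  have hbY : c (i + 2) ∉ ({c (i + 3), c (i + 4), c (i + 5)} : Set (Fin 6)) := by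
    rintro (h1 | h1 | h1)
    · exact P.ne d7 h1
    · exact P.ne d8 h1
    · exact P.ne d9 h1
  have hXY : Disjoint ({c (i + 1)} : Set (Fin 6)) {c (i + 3), c (i + 4), c (i + 5)} := by
    rw [Set.disjoint_singleton_left]
    rintro (h1 | h1 | h1)
    · exact P.ne d10 h1
    · exact P.ne d11 h1
    · exact P.ne d12 h1
  have hbr : ∀ x ∈ ({c (i + 1)} : Set (Fin 6)), ∀ y ∈ ({c (i + 3), c (i + 4), c (i + 5)} :
      Set (Fin 6)), ∃ q, dist q z = 1 ∧ T q = {x, y} := by
    rintro x rfl y (rfl | rfl | rfl)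
    · have := P.e2 (i + 1); rwa [d13] at this
    · have := P.e3 (i + 1); rwa [d14] at this
    · obtain ⟨q, h1, h2⟩ := P.e2 (i + 5)
      rw [d15] at h2
      exact ⟨q, h1, by rw [h2, Set.pair_comm]⟩
  rcases h.tau_nappes hmn (by rw [P.six]; norm_num) (P.ne d1) hz (fun h1 => P.ne d2 h1)
    (fun h1 => P.ne d3 h1) haY hbY (singleton_nonempty _) ⟨_, Or.inl rfl⟩ hXY hX2 hbr hq hT
    with h1 | h1
  · exact Or.inl h1.1
  · exact Or.inr h1.2

/-- all colours are solid -/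
theorem solid (P : Prism259 T z c) (h : Irr U T) (hmn : Mq259 U T) (i : Fin 6) :
    ∃ q m, dist q z = 1 ∧ T q = {c (i + 5), c (i + 1)} ∧
      (m = Complex.I * (q - z) ∨ m = -(Complex.I * (q - z))) ∧ tau T z m ⊆ {c i} := by
  have hd : ∀ i : Fin 6, i + 5 + 2 = i + 1 ∧ i + 5 + 1 = i := by decide
  obtain ⟨d1, d2⟩ := hd i
  obtain ⟨q, hq, hT⟩ := P.e2 (i + 5)
  rcases P.tau_split h hmn hq hT with h1 | h1
  · rw [d2] at h1; rw [d1] at hT
    exact ⟨q, _, hq, hT, Or.inl rfl, h1⟩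
  · rw [d2] at h1; rw [d1] at hT
    exact ⟨q, _, hq, hT, Or.inr rfl, h1⟩

theorem norm_rot {q m : ℂ} (hq : dist q z = 1)
    (hm : m = Complex.I * (q - z) ∨ m = -(Complex.I * (q - z))) : ‖m‖ = 1 := by
  rw [dist_eq_norm] at hq
  rcases hm with rfl | rfl
  · rw [norm_mul, Complex.norm_I, hq, one_mul]
  · rw [norm_neg, norm_mul, Complex.norm_I, hq, one_mul]

theorem solid' (P : Prism259 T z c) (h : Irr U T) (hmn : Mq259 U T) (x : Fin 6) :
    ∃ m, m ≠ 0 ∧ Ray (U x) z m := by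
  obtain ⟨i, rfl⟩ := P.surj x
  obtain ⟨q, m, hq, -, hm, ht⟩ := P.solid h hmn i
  refine ⟨m, fun h0 => ?_, h.ray_of_tau ht⟩
  have := norm_rot hq hm
  rw [h0, norm_zero] at this
  exact zero_ne_one this

/-- the two colours of an exact pair are on different sides -/
theorem sides (P : Prism259 T z c) (h : Irr U T) (hmn : Mq259 U T) {a b : Fin 6} {q : ℂ}
    (hq : dist q z = 1) (hT : T q = {a, b}) :
    ∃ n, (n = q - z ∨ n = -(q - z)) ∧ Side429 U z n a ∧ Side429 U z (-n) b := by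
  obtain ⟨m, hm0, hm⟩ := P.solid' h hmn a
  obtain ⟨m', hm0', hm'⟩ := P.solid' h hmn b
  obtain ⟨θ, hθ⟩ := exists_cis (u := q - z) (by rw [← dist_eq_norm]; exact hq)
  have e : q = z + cis θ := by rw [← hθ]; ring
  have harc := h.arc_of_pair429 (P.all a) (P.all b) hq hT
  rw [e] at harc
  rcases h.collar_of_rays harc hm0 hm0' hm hm' with ⟨-, -, hC⟩ | ⟨-, -, hC⟩
  · obtain ⟨h1, h2⟩ := collar_iff429.1 hC
    refine ⟨cis θ, Or.inl hθ.symm, h.innC_side h1, h.outC_side h2⟩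
  · obtain ⟨h1, h2⟩ := collar_iff429.1 hC
    refine ⟨-cis θ, Or.inr (by rw [hθ]), h.outC_side h2, ?_⟩
    rw [neg_neg]
    exact h.innC_side h1

/-- the directions of the colours of an exact pair -/
theorem dirs (P : Prism259 T z c) (h : Irr U T) (hmn : Mq259 U T) {a b : Fin 6} {q : ℂ}
    (hq : dist q z = 1) (hT : T q = {a, b}) :
    ∃ n, (n = q - z ∨ n = -(q - z)) ∧ (∀ m, ‖m‖ = 1 → a ∈ tau T z m → 0 < ip m n) ∧
      ∀ m, ‖m‖ = 1 → b ∈ tau T z m → ip m n < 0 := by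
  obtain ⟨n, hn, h1, h2⟩ := P.sides h hmn hq hT
  obtain ⟨ε, hε, h3⟩ := h.dir_of_side h1
  obtain ⟨ε', hε', h4⟩ := h.dir_of_side h2
  refine ⟨n, hn, fun m hm ha => lt_of_lt_of_le hε (h3 m hm ha), fun m hm hb => ?_⟩
  have := h4 m hm hb
  have e : ip m (-n) = -ip m n := by unfold ip; simp; ring
  rw [e] at this
  linarith

/-- an exact pair with the colours at `i` and `i + 2`, `i + 3` or `i + 4` -/
theorem exact (P : Prism259 T z c) (i : Fin 6) : (∃ q, dist q z = 1 ∧ T q = {c i, c (i + 2)}) ∧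
    (∃ q, dist q z = 1 ∧ T q = {c i, c (i + 3)}) ∧
    ∃ q, dist q z = 1 ∧ T q = {c i, c (i + 4)} := by
  refine ⟨P.e2 i, P.e3 i, ?_⟩
  have hd : ∀ i : Fin 6, i + 4 + 2 = i := by decide
  obtain ⟨q, h1, h2⟩ := P.e2 (i + 4)
  rw [hd i] at h2
  exact ⟨q, h1, by rw [h2, Set.pair_comm]⟩

/-- the types are independent sets -/
theorem indep (P : Prism259 T z c) (h : Irr U T) (hmn : Mq259 U T) {a b : Fin 6}
    (hab : ∃ q, dist q z = 1 ∧ T q = {a, b}) {m : ℂ} (hm : ‖m‖ = 1) (ha : a ∈ tau T z m)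
    (hb : b ∈ tau T z m) : False := by
  obtain ⟨q, hq, hT⟩ := hab
  obtain ⟨n, -, h1, h2⟩ := P.dirs h hmn hq hT
  have := h1 m hm ha
  have := h2 m hm hb
  linarith

/-- the type of a direction which is not solid -/
theorem pair_of (P : Prism259 T z c) (h : Irr U T) (hmn : Mq259 U T) {m : ℂ} (hm : ‖m‖ = 1)
    (hns : ∀ x, ¬ Ray (U x) z m) : ∃ i, c i ∈ tau T z m ∧ c (i + 1) ∈ tau T z m ∧
      tau T z m ⊆ {c i, c (i + 1)} := by
  obtain ⟨x, hx⟩ := h.tau_nonempty z m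
  obtain ⟨i, rfl⟩ := P.surj x
  have h1 : ¬ tau T z m ⊆ {c i} := fun h1 => hns _ (h.ray_of_tau h1)
  obtain ⟨y, hy, hyi⟩ := Set.not_subset.1 h1
  obtain ⟨j, rfl⟩ := P.surj y
  obtain ⟨k2, k3, k4⟩ := P.exact i
  have hd : ∀ i : Fin 6, i + 5 + 1 = i ∧ i + 1 + 4 = i + 5 ∧ i + 5 + 2 = i + 1 ∧
      i + 5 + 3 = i + 2 ∧ i + 5 + 4 = i + 3 := by decide
  obtain ⟨d1, d2, d3, d4, d5⟩ := hd i
  rcases cases6 i j with rfl | rfl | rfl | rfl | rfl | rfl
  · exact absurd rfl hyi
  · refine ⟨i, hx, hy, fun w hw => ?_⟩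
    obtain ⟨l, rfl⟩ := P.surj w
    rcases cases6 i l with rfl | rfl | rfl | rfl | rfl | rfl
    · exact Or.inl rfl
    · exact Or.inr rfl
    · exact absurd hw fun h2 => P.indep h hmn k2 hm hx h2
    · exact absurd hw fun h2 => P.indep h hmn k3 hm hx h2
    · exact absurd hw fun h2 => P.indep h hmn k4 hm hx h2
    · have := (P.exact (i + 1)).2.2
      rw [d2] at this
      exact absurd hw fun h2 => P.indep h hmn this hm hy h2
  · exact absurd hy fun h2 => P.indep h hmn k2 hm hx h2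
  · exact absurd hy fun h2 => P.indep h hmn k3 hm hx h2
  · exact absurd hy fun h2 => P.indep h hmn k4 hm hx h2
  · refine ⟨i + 5, hy, by rw [d1]; exact hx, fun w hw => ?_⟩
    rw [d1]
    obtain ⟨l, rfl⟩ := P.surj w
    rcases cases6 i l with rfl | rfl | rfl | rfl | rfl | rfl
    · exact Or.inr rfl
    · have := (P.exact (i + 5)).1
      rw [d3] at this
      exact absurd hw fun h2 => P.indep h hmn this hm hy h2
    · exact absurd hw fun h2 => P.indep h hmn k2 hm hx h2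
    · exact absurd hw fun h2 => P.indep h hmn k3 hm hx h2
    · exact absurd hw fun h2 => P.indep h hmn k4 hm hx h2
    · exact Or.inl rfl

theorem ip_lin (x Y a b : ℂ) (p q : ℝ) (hx : x = (p : ℂ) * a + q * b) :
    ip x Y = p * ip a Y + q * ip b Y := by
  subst hx
  unfold ip
  simp only [Complex.add_re, Complex.add_im, Complex.mul_re, Complex.mul_im, Complex.ofReal_re,
    Complex.ofReal_im]
  ring

/-- **the wedge of two neighbouring colours** -/
theorem wedge (P : Prism259 T z c) (h : Irr U T) (hmn : Mq259 U T) {i : Fin 6} {m : ℂ}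
    (hm : ‖m‖ = 1) (hc : c i ∈ tau T z m) (hd : c (i + 1) ∈ tau T z m)
    (h1 : c i ∉ Pal U (z + Complex.I * m)) (h2 : c i ∉ Pal U (z - Complex.I * m))
    (h3 : c (i + 1) ∉ Pal U (z + Complex.I * m)) (h4 : c (i + 1) ∉ Pal U (z - Complex.I * m)) :
    Ray (U (c i)) z m ∨ Ray (U (c (i + 1))) z m := by
  have hdd : ∀ i : Fin 6, i + 1 + 5 = i ∧ i + 1 + 1 = i + 2 ∧ i + 1 + 2 = i + 3 ∧
      i + 1 + 3 = i + 4 := by decide
  obtain ⟨d1, d2, d3, d4⟩ := hdd i
  obtain ⟨q1, a, hq1, hT1, ha, hta⟩ := P.solid h hmn i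
  obtain ⟨q2, b, hq2, hT2, hb, htb⟩ := P.solid h hmn (i + 1)
  rw [d1, d2] at hT2
  have han := norm_rot hq1 ha
  have hbn := norm_rot hq2 hb
  have ka : c i ∈ tau T z a := by
    obtain ⟨x, hx⟩ := h.tau_nonempty z a
    have : x = c i := hta hx
    rwa [this] at hx
  have kb : c (i + 1) ∈ tau T z b := by
    obtain ⟨x, hx⟩ := h.tau_nonempty z b
    have : x = c (i + 1) := htb hx
    rwa [this] at hx
  -- the normals
  obtain ⟨n1, hn1, s1, s1'⟩ := P.dirs h hmn hq1 (a := c (i + 1)) (b := c (i + 5))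
    (by rw [hT1, Set.pair_comm])
  obtain ⟨n2, hn2, s2, s2'⟩ := P.dirs h hmn hq2 hT2
  have orth : ∀ {q a n : ℂ}, (a = Complex.I * (q - z) ∨ a = -(Complex.I * (q - z))) →
      (n = q - z ∨ n = -(q - z)) → ip a n = 0 := by
    rintro q a n (rfl | rfl) (rfl | rfl) <;> · unfold ip; simp; ring
  have oa : ip a n1 = 0 := orth ha hn1
  have ob : ip b n2 = 0 := orth hb hn2
  have pb : 0 < ip b n1 := s1 b hbn kb
  have pa : 0 < ip a n2 := s2 a han ka
  have pm1 : 0 < ip m n1 := s1 m hm hd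
  have pm2 : 0 < ip m n2 := s2 m hm hc
  have hab : cr a b ≠ 0 := by
    intro h0
    have hA := ip_sq han
    have hB := ip_sq hbn
    obtain ⟨t, ht⟩ : ∃ t : ℝ, t = ip a b := ⟨_, rfl⟩
    unfold cr at h0
    unfold ip at ht
    have e : b = t * a := by
      apply Complex.ext
      · simp
        rw [ht]
        linear_combination (-b.re) * hA - a.im * h0
      · simp
        rw [ht]
        linear_combination (-b.im) * hA + a.re * h0
    have e2 : ip b n1 = t * ip a n1 := by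
      rw [e]; unfold ip; simp; ring
    rw [e2, oa, mul_zero] at pb
    exact lt_irrefl _ pb
  obtain ⟨α, hα⟩ : ∃ α : ℝ, α = cr m b / cr a b := ⟨_, rfl⟩
  obtain ⟨β, hβ⟩ : ∃ β : ℝ, β = cr a m / cr a b := ⟨_, rfl⟩
  have hmab : m = (α : ℂ) * a + β * b := by
    have hab' : a.re * b.im - a.im * b.re ≠ 0 := hab
    have hp' : α * (a.re * b.im - a.im * b.re) = m.re * b.im - m.im * b.re := by
      rw [hα]; exact div_mul_cancel₀ _ hab'
    have hq' : β * (a.re * b.im - a.im * b.re) = a.re * m.im - a.im * m.re := by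
      rw [hβ]; exact div_mul_cancel₀ _ hab'
    apply Complex.ext
    · simp only [Complex.add_re, Complex.mul_re, Complex.ofReal_re, Complex.ofReal_im]
      apply mul_right_cancel₀ hab'
      linear_combination (-a.re) * hp' - b.re * hq'
    · simp only [Complex.add_im, Complex.mul_im, Complex.ofReal_re, Complex.ofReal_im]
      apply mul_right_cancel₀ hab'
      linear_combination (-a.im) * hp' - b.im * hq'
  have f1 := ip_lin m n1 a b α β hmab
  have f2 := ip_lin m n2 a b α β hmab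
  rw [oa, mul_zero, zero_add] at f1
  rw [ob, mul_zero, add_zero] at f2
  have hβ0 : 0 < β := by rw [f1] at pm1; exact pos_of_mul_pos_left pm1 pb.le
  have hα0 : 0 < α := by rw [f2] at pm2; exact pos_of_mul_pos_left pm2 pa.le
  refine h.wedge259 hm (h.ray_of_tau hta) (h.ray_of_tau htb) hα0 hβ0 hmab hab ?_ h1 h2 h3 h4
  intro p q hp hq hx1 w hw
  obtain ⟨x, hx⟩ : ∃ x, x = (p : ℂ) * a + q * b := ⟨_, rfl⟩
  rw [← hx] at hx1 hw
  have g1 := ip_lin x n1 a b p q hx
  have g2 := ip_lin x n2 a b p q hx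
  rw [oa, mul_zero, zero_add] at g1
  rw [ob, mul_zero, add_zero] at g2
  -- a colour which is exact with both
  have both : ∀ y, (∃ q, dist q z = 1 ∧ T q = {c i, y}) →
      (∃ q, dist q z = 1 ∧ T q = {c (i + 1), y}) → y ∈ tau T z x → False := by
    rintro y ⟨q3, hq3, hT3⟩ ⟨q4, hq4, hT4⟩ hy
    obtain ⟨n3, -, s3, s3'⟩ := P.dirs h hmn hq3 hT3
    obtain ⟨n4, -, s4, s4'⟩ := P.dirs h hmn hq4 hT4
    have m3 := s3 m hm hc
    have m4 := s4 m hm hd
    have a3 := s3 a han ka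
    have b4 := s4 b hbn kb
    have x3 := s3' x hx1 hy
    have x4 := s4' x hx1 hy
    have l1 := ip_lin m n3 a b α β hmab
    have l2 := ip_lin m n4 a b α β hmab
    have l3 := ip_lin x n3 a b p q hx
    have l4 := ip_lin x n4 a b p q hx
    rcases le_total (q * α) (p * β) with h5 | h5
    · have e1 : β * ip x n3 = q * ip m n3 + (p * β - q * α) * ip a n3 := by
        rw [l3, l1]; ring
      have e2 : 0 ≤ q * ip m n3 + (p * β - q * α) * ip a n3 := by
        have := mul_nonneg hq m3.le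
        have := mul_nonneg (sub_nonneg.2 h5) a3.le
        linarith
      rw [← e1] at e2
      nlinarith
    · have e1 : α * ip x n4 = p * ip m n4 + (q * α - p * β) * ip b n4 := by
        rw [l4, l2]; ring
      have e2 : 0 ≤ p * ip m n4 + (q * α - p * β) * ip b n4 := by
        have := mul_nonneg hp m4.le
        have := mul_nonneg (sub_nonneg.2 h5) b4.le
        linarith
      rw [← e1] at e2
      nlinarith
  obtain ⟨l, rfl⟩ := P.surj w
  rcases cases6 i l with rfl | rfl | rfl | rfl | rfl | rfl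
  · exact Or.inl rfl
  · exact Or.inr rfl
  · exfalso
    have h5 := s2' x hx1 hw
    rw [g2] at h5
    have := mul_nonneg hp pa.le
    linarith
  · exact absurd hw fun h5 => both _ (P.exact i).2.1 (by
      have := (P.exact (i + 1)).1; rwa [d3] at this) h5
  · exact absurd hw fun h5 => both _ (P.exact i).2.2 (by
      have := (P.exact (i + 1)).2.1; rwa [d4] at this) h5
  · exfalso
    have h5 := s1' x hx1 hw
    rw [g1] at h5
    have := mul_nonneg hq pb.le
    linarith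

/-- a colour which occurs in all directions of an open set is missing on the perpendicular slots
for some of them -/
theorem shrink (h : Irr U T) {W : Set ℝ} (hWo : IsOpen W) (hW : W.Nonempty) {x : Fin 6}
    (hx : ∀ s ∈ W, x ∈ tau T z (cis s)) {τ : ℝ} (hτ : τ = 1 ∨ τ = -1) :
    ∃ W' ⊆ W, IsOpen W' ∧ W'.Nonempty ∧
      ∀ s ∈ W', x ∉ Pal U (z + (τ : ℂ) * (Complex.I * cis s)) := by
  have hcl : IsClosed {s : ℝ | x ∈ Pal U (z + (τ : ℂ) * (Complex.I * cis s))} := by
    have : {s : ℝ | x ∈ Pal U (z + (τ : ℂ) * (Complex.I * cis s))} =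
        (fun s : ℝ => z + (τ : ℂ) * (Complex.I * cis s)) ⁻¹' closure (U x) := rfl
    rw [this]
    exact isClosed_closure.preimage
      (continuous_const.add (continuous_const.mul (continuous_const.mul continuous_cis)))
  refine ⟨W ∩ {s : ℝ | x ∈ Pal U (z + (τ : ℂ) * (Complex.I * cis s))}ᶜ, inter_subset_left,
    hWo.inter hcl.isOpen_compl, ?_, fun s hs => hs.2⟩
  by_contra hcon
  rw [Set.not_nonempty_iff_eq_empty] at hcon
  obtain ⟨s, hs⟩ := hW
  obtain ⟨η, hη, hball⟩ := Metric.isOpen_iff.1 hWo s hs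
  have hall : ∀ t : ℝ, |t - s| < η → x ∈ Pal U (z + (τ : ℂ) * (Complex.I * cis t)) := by
    intro t ht
    by_contra h1
    have h2 : t ∈ W := hball (by rw [mem_ball, Real.dist_eq]; exact ht)
    have h3 : t ∈ W ∩ {s : ℝ | x ∈ Pal U (z + (τ : ℂ) * (Complex.I * cis s))}ᶜ := ⟨h2, h1⟩
    rw [hcon] at h3
    exact h3
  have hcI : ∀ t : ℝ, (τ : ℂ) * (Complex.I * cis t) = cis (t + τ * (Real.pi / 2)) := by
    intro t
    rcases hτ with rfl | rfl
    · rw [cis_add429]
      have : cis (1 * (Real.pi / 2)) = Complex.I := by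
        apply Complex.ext <;> simp [cis_re, cis_im]
      rw [this]; push_cast; ring
    · rw [cis_add429]
      have : cis (-1 * (Real.pi / 2)) = -Complex.I := by
        apply Complex.ext <;> simp [cis_re, cis_im]
      rw [this]; push_cast; ring
  have h1 := h.mx.nap_avoid (z := z) (t0 := s + τ * (Real.pi / 2)) hη (i := x)
    (fun t ht => by
      have h2 := hall (t - τ * (Real.pi / 2)) (by
        rw [show t - τ * (Real.pi / 2) - s = t - (s + τ * (Real.pi / 2)) by ring]; exact ht)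
      rw [hcI, sub_add_cancel] at h2
      exact h2) (σ := -τ) (by rcases hτ with rfl | rfl <;> simp)
  have e : ((-τ : ℝ) : ℂ) * (Complex.I * cis (s + τ * (Real.pi / 2))) = cis s := by
    rw [← hcI]
    have hI := Complex.I_mul_I
    rcases hτ with rfl | rfl
    · push_cast; linear_combination (-cis s) * hI
    · push_cast; linear_combination (-cis s) * hI
  rw [e] at h1
  have h2 : ∃ᶠ w in nap z (cis s), x ∈ T w := hx s hs
  obtain ⟨w, h3, h4⟩ := (h2.and_eventually h1).exists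
  exact h4 (h.sub w h3)

/-- **the solid directions are dense** -/
theorem dense (P : Prism259 T z c) (h : Irr U T) (hmn : Mq259 U T) {W : Set ℝ} (hWo : IsOpen W)
    (hW : W.Nonempty) : ∃ s ∈ W, ∃ x, Ray (U x) z (cis s) := by
  by_contra hcon
  push Not at hcon
  obtain ⟨s0, hs0⟩ := hW
  obtain ⟨i, hi, hi', hsub⟩ := P.pair_of h hmn (norm_cis s0) (hcon s0 hs0)
  have hev : ∀ᶠ s in 𝓝 s0, tau T z (cis s) ⊆ tau T z (cis s0) := by
    have h1 := tau_semi T z (cis s0)
    have h2 : Tendsto (fun t : ℝ => t - s0) (𝓝 s0) (𝓝 0) := by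
      have hc : Continuous fun t : ℝ => t - s0 := by fun_prop
      have := hc.tendsto s0
      rwa [sub_self] at this
    filter_upwards [h2.eventually h1] with t ht
    rwa [← cis_add429, show s0 + (t - s0) = t by ring] at ht
  obtain ⟨W1, hW1, hW1o, hs1⟩ := _root_.mem_nhds_iff.1 (inter_mem hev (hWo.mem_nhds hs0))
  have hboth : ∀ s ∈ W1, c i ∈ tau T z (cis s) ∧ c (i + 1) ∈ tau T z (cis s) := by
    intro s hs
    have h1 : tau T z (cis s) ⊆ {c i, c (i + 1)} := (hW1 hs).1.trans hsub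
    have h2 := hcon s (hW1 hs).2
    constructor
    · by_contra h3
      refine h2 (c (i + 1)) (h.ray_of_tau fun w hw => ?_)
      rcases h1 hw with h4 | h4
      · exact absurd (h4 ▸ hw) h3
      · exact h4
    · by_contra h3
      refine h2 (c i) (h.ray_of_tau fun w hw => ?_)
      rcases h1 hw with h4 | h4
      · exact h4
      · rw [mem_singleton_iff] at h4
        exact absurd (h4 ▸ hw) h3
  obtain ⟨W2, hW2, hW2o, hW2n, g2⟩ := shrink (z := z) h hW1o ⟨s0, hs1⟩ (x := c i)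
    (fun s hs => (hboth s hs).1) (τ := 1) (Or.inl rfl)
  obtain ⟨W3, hW3, hW3o, hW3n, g3⟩ := shrink (z := z) h hW2o hW2n (x := c i)
    (fun s hs => (hboth s (hW2 hs)).1) (τ := -1) (Or.inr rfl)
  obtain ⟨W4, hW4, hW4o, hW4n, g4⟩ := shrink (z := z) h hW3o hW3n (x := c (i + 1))
    (fun s hs => (hboth s (hW2 (hW3 hs))).2) (τ := 1) (Or.inl rfl)
  obtain ⟨W5, hW5, hW5o, ⟨s, hs⟩, g5⟩ := shrink (z := z) h hW4o hW4n (x := c (i + 1))
    (fun s hs => (hboth s (hW2 (hW3 (hW4 hs)))).2) (τ := -1) (Or.inr rfl)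
  have e1 : z + ((1 : ℝ) : ℂ) * (Complex.I * cis s) = z + Complex.I * cis s := by
    push_cast; ring
  have e2 : z + ((-1 : ℝ) : ℂ) * (Complex.I * cis s) = z - Complex.I * cis s := by
    push_cast; ring
  have k2 := g2 s (hW3 (hW4 (hW5 hs)))
  have k3 := g3 s (hW4 (hW5 hs))
  have k4 := g4 s (hW5 hs)
  have k5 := g5 s hs
  rw [e1] at k2 k4
  rw [e2] at k3 k5
  have hsW1 := hW2 (hW3 (hW4 (hW5 hs)))
  obtain ⟨hb1, hb2⟩ := hboth s hsW1
  rcases P.wedge h hmn (norm_cis s) hb1 hb2 k2 k3 k4 k5 with h5 | h5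
  · exact hcon s (hW1 hsW1).2 _ h5
  · exact hcon s (hW1 hsW1).2 _ h5

end Prism259

end Vale.Agent.P032.Six
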