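import Vale.Agent.P032.H259.Prism1
import Vale.Agent.P032.H448.Win
import Vale.Agent.P032.H448.Tile

/-!
# P032: the windows of a prism centre

`wins259` : the hulls of the solid directions of the six colours are closed arcs with ends in the
closure of the solid directions; they cover the circle; the arcs of an exact pair are disjoint; at
every direction with a constant palette all colours of the palette are strictly in front or strictly
behind, and both kinds occur.
-/

open Set Filter Topology Metric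

noncomputable section

namespace Vale.Agent.P032.H259

open Vale.Agent.P032.Six Vale.Agent.P032.Sweep Vale.Agent.P032.S5.H767 Vale.Agent.P032.S5.H122
  Vale.Agent.P032.H429 Vale.Agent.P032.H187 Vale.Agent.P032.H158 Vale.Agent.P032.H448

variable {U : Fin 6 → Set ℂ} {T : ℂ → Set (Fin 6)} {z : ℂ} {c : Fin 6 → Fin 6}

theorem closure_dr259 {i : Fin 6} {x : ℝ} :
    x ∈ closure (Dr U z i) ↔ x * (Real.pi / 3) ∈ closure (SD448 U z i) := by
  have hne : Real.pi / 3 ≠ 0 := by positivity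
  have h1 := (Homeomorph.mulRight₀ (Real.pi / 3) hne).preimage_closure (SD448 U z i)
  have h2 : (Homeomorph.mulRight₀ (Real.pi / 3) hne) ⁻¹' (SD448 U z i) = Dr U z i := rfl
  rw [h2] at h1
  rw [← h1]
  exact Iff.rfl

/-- solid directions between two solid directions -/
theorem fill259 (h : Irr U T) {i : Fin 6} {s1 s2 t : ℝ} (h1 : Ray (U i) z (cis s1))
    (h2 : Ray (U i) z (cis s2)) (ht1 : s1 < t) (ht2 : t < s2) (hs : s2 < s1 + Real.pi) :
    Ray (U i) z (cis t) := by
  have hs0 : 0 < Real.sin (s2 - s1) := Real.sin_pos_of_pos_of_lt_pi (by linarith) (by linarith)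
  have ha0 : 0 < Real.sin (s2 - t) := Real.sin_pos_of_pos_of_lt_pi (by linarith) (by linarith)
  have hb0 : 0 < Real.sin (t - s1) := Real.sin_pos_of_pos_of_lt_pi (by linarith) (by linarith)
  have hcr : cr (cis s1) (cis s2) = Real.sin (s2 - s1) := by
    unfold cr
    rw [cis_re, cis_im, cis_re, cis_im, Real.sin_sub]
    ring
  obtain ⟨ε, hε, hf⟩ := h.fill429 (norm_cis s1) (norm_cis s2) (by rw [hcr]; exact hs0.ne') h1 h2
  obtain ⟨a, ha⟩ : ∃ a, a = Real.sin (s2 - t) / Real.sin (s2 - s1) := ⟨_, rfl⟩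
  obtain ⟨b, hb⟩ : ∃ b, b = Real.sin (t - s1) / Real.sin (s2 - s1) := ⟨_, rfl⟩
  have ha' : 0 < a := by rw [ha]; positivity
  have hb' : 0 < b := by rw [hb]; positivity
  have e : cis t = (a : ℂ) * cis s1 + b * cis s2 := by
    have hk1 : a * Real.sin (s2 - s1) = Real.sin (s2 - t) := by
      rw [ha]; exact div_mul_cancel₀ _ hs0.ne'
    have hk2 : b * Real.sin (s2 - s1) = Real.sin (t - s1) := by
      rw [hb]; exact div_mul_cancel₀ _ hs0.ne'
    have q1 := Real.sin_sq_add_cos_sq s1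
    have q2 := Real.sin_sq_add_cos_sq s2
    have q3 := Real.sin_sq_add_cos_sq t
    rw [Real.sin_sub] at hk1 hk2 hs0
    rw [Real.sin_sub s2 t] at hk1
    rw [Real.sin_sub t s1] at hk2
    apply Complex.ext
    · simp only [Complex.add_re, Complex.mul_re, Complex.ofReal_re, Complex.ofReal_im, cis_re,
        cis_im]
      apply mul_right_cancel₀ hs0.ne'
      linear_combination (-Real.cos s1) * hk1 - Real.cos s2 * hk2
    · simp only [Complex.add_im, Complex.mul_im, Complex.ofReal_re, Complex.ofReal_im, cis_re,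
        cis_im]
      apply mul_right_cancel₀ hs0.ne'
      linear_combination (-Real.sin s1) * hk1 - Real.sin s2 * hk2
  have hpos : 0 < ε / (a + b) := by positivity
  show ∀ᶠ r : ℝ in 𝓝[>] 0, z + r * cis t ∈ U i
  filter_upwards [Ioo_mem_nhdsGT hpos] with r hr
  have h3 := hf (r * a) (r * b) (mul_pos hr.1 ha') (mul_pos hr.1 hb') (by
    have := hr.2
    rw [lt_div_iff₀ (by positivity)] at this
    linarith)
  have e2 : z + (r : ℂ) * cis t = z + ((r * a : ℝ) : ℂ) * cis s1 + ((r * b : ℝ) : ℂ) * cis s2 := by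
    rw [e]; push_cast; ring
  rw [e2]
  exact h3

/-- a one-sided colour of the centre -/
theorem exists_side259 (P : Prism259 T z c) (h : Irr U T) (hmn : Mq259 U T) (x : Fin 6) :
    ∃ θ, Side429 U z (cis θ) x := by
  obtain ⟨i, rfl⟩ := P.surj x
  obtain ⟨q, hq, hT⟩ := P.e2 i
  obtain ⟨n, hn, h1, -⟩ := P.sides h hmn hq hT
  obtain ⟨θ, hθ⟩ := exists_cis (u := n) (by
    rw [dist_eq_norm] at hq
    rcases hn with rfl | rfl
    · exact hq
    · rw [norm_neg]; exact hq)
  exact ⟨θ, by rw [← hθ]; exact h1⟩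

/-- a colour carried by the circle near `cis θ` has no limit of solid directions perpendicular to
it -/
theorem perp259 (h : Irr U T) {x : Fin 6} {s : ℝ} (hs : s ∈ Lc T z) (hx : x ∈ T (pt z s)) {t : ℝ}
    (ht : t ∈ closure (SD448 U z x)) : Real.cos (t - s * (Real.pi / 3)) ≠ 0 := by
  intro h0
  have hp : 0 < Real.pi / 3 := by positivity
  have hev : ∀ᶠ v in 𝓝 s, v ∈ Lc T z ∧ T (pt z v) = T (pt z s) :=
    Filter.Eventually.and (p := fun v => v ∈ Lc T z) ((Lc_open z).mem_nhds hs) hs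
  have hev2 : ∀ᶠ t' in 𝓝 t, s + (t' - t) / (Real.pi / 3) ∈ Lc T z ∧
      T (pt z (s + (t' - t) / (Real.pi / 3))) = T (pt z s) := by
    have h1 : Tendsto (fun t' : ℝ => s + (t' - t) / (Real.pi / 3)) (𝓝 t) (𝓝 s) := by
      have : Continuous fun t' : ℝ => s + (t' - t) / (Real.pi / 3) := by fun_prop
      have h2 := this.tendsto t
      simpa using h2
    exact h1.eventually hev
  rw [mem_closure_iff_frequently] at ht
  obtain ⟨t', ht1, ht2, ht3⟩ := (ht.and_eventually hev2).exists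
  obtain ⟨v, hv⟩ : ∃ v, v = s + (t' - t) / (Real.pi / 3) := ⟨_, rfl⟩
  rw [← hv] at ht2 ht3
  have harc : Arc T z (pt z v) (T (pt z v)) := ⟨dist_pt z v, Lc_circle ht2⟩
  refine h.ip_ne326 harc (by rw [ht3]; exact hx) (u := cis t') (fun h1 => ?_) ht1 ?_
  · have := norm_cis t'
    rw [h1, norm_zero] at this
    exact zero_ne_one this
  · have e : pt z v - z = cis (v * (Real.pi / 3)) := by unfold pt; ring
    rw [e, ip_cis429]
    have e2 : t' - v * (Real.pi / 3) = t - s * (Real.pi / 3) := by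
      rw [hv]; field_simp; ring
    rw [e2]; exact h0

/-- the structure of the solid windows -/
structure Wins259 (U : Fin 6 → Set ℂ) (T : ℂ → Set (Fin 6)) (z : ℂ) (L R : Fin 6 → ℝ) : Prop where
  le : ∀ x, L x ≤ R x
  lt : ∀ x, R x < L x + 3
  hl : ∀ x, L x ∈ closure (Dr U z x)
  hr : ∀ x, R x ∈ closure (Dr U z x)
  mem : ∀ x, ∀ s ∈ closure (Dr U z x), ∃ n : ℤ, L x + 6 * n ≤ s ∧ s ≤ R x + 6 * n
  cover : ∀ s : ℝ, ∃ x, ∃ n : ℤ, L x + 6 * n ≤ s ∧ s ≤ R x + 6 * n
  disj : ∀ a b, (∃ q, dist q z = 1 ∧ T q = {a, b}) → ∀ (s : ℝ) (n m : ℤ),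
    L a + 6 * n ≤ s → s ≤ R a + 6 * n → L b + 6 * m ≤ s → s ≤ R b + 6 * m → False
  lett : ∀ s ∈ Lc T z, ∀ x ∈ T (pt z s),
    (InnN U z (pt z s) x ∧ ∃ n : ℤ, s - 3 / 2 < L x + 6 * n ∧ R x + 6 * n < s + 3 / 2) ∨
      (OutN U z (pt z s) x ∧ ∃ n : ℤ, s + 3 / 2 < L x + 6 * n ∧ R x + 6 * n < s + 9 / 2)
  inn : ∀ s ∈ Lc T z, ∃ x ∈ T (pt z s), InnN U z (pt z s) x
  out : ∀ s ∈ Lc T z, ∃ x ∈ T (pt z s), OutN U z (pt z s) x

theorem scale259 {a b : ℝ} (h : a * (Real.pi / 3) ≤ b * (Real.pi / 3)) : a ≤ b :=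
  le_of_mul_le_mul_right h (by positivity)

theorem scale_lt259 {a b : ℝ} (h : a * (Real.pi / 3) < b * (Real.pi / 3)) : a < b :=
  lt_of_mul_lt_mul_right h (by positivity)

/-- colours inside near a point of the circle -/
theorem exists_side_of259 (h : Irr U T) {q : ℂ} {R : Set ℂ} (hR : ∃ᶠ w in 𝓝 q, w ∈ R) :
    ∃ x ∈ T q, ∃ᶠ w in 𝓝 q, x ∈ T w ∧ w ∈ R := by
  by_contra hcon
  push Not at hcon
  have h1 : ∀ x : Fin 6, ∀ᶠ w in 𝓝 q, x ∈ T q → ¬ (x ∈ T w ∧ w ∈ R) := by
    intro x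
    by_cases hx : x ∈ T q
    · have h2 := hcon x hx
      exact h2.mono fun w hw _ h3 => hw h3.1 h3.2
    · exact Eventually.of_forall fun w h2 => absurd h2 hx
  obtain ⟨w, hw, h2, h3⟩ := (hR.and_eventually ((eventually_all.2 h1).and (h.nhd q))).exists
  obtain ⟨x, hx⟩ := h.ne w
  exact h2 x (h3 hx) ⟨hx, hw⟩

theorem freq_in259 {q : ℂ} (hq : dist q z = 1) : ∃ᶠ w in 𝓝 q, w ∈ {w | dist w z < 1} := by
  have hc : Tendsto (fun r : ℝ => z + (r : ℂ) * (q - z)) (𝓝[<] 1) (𝓝 q) := by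
    have h1 : Continuous fun r : ℝ => z + (r : ℂ) * (q - z) := by fun_prop
    have h2 := (h1.tendsto 1).mono_left (nhdsWithin_le_nhds (s := Iio 1))
    have e : z + ((1 : ℝ) : ℂ) * (q - z) = q := by push_cast; ring
    rwa [e] at h2
  have h3 : ∃ᶠ r : ℝ in 𝓝[<] 1, z + (r : ℂ) * (q - z) ∈ {w | dist w z < 1} := by
    refine Eventually.frequently ?_
    filter_upwards [Ioo_mem_nhdsLT (show (0 : ℝ) < 1 by norm_num)] with r hr
    show dist (z + (r : ℂ) * (q - z)) z < 1
    rw [dist_eq_norm, add_sub_cancel_left, norm_mul, Complex.norm_real, Real.norm_eq_abs,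
      abs_of_pos hr.1, ← dist_eq_norm, hq, mul_one]
    exact hr.2
  exact hc.frequently h3

theorem freq_out259 {q : ℂ} (hq : dist q z = 1) : ∃ᶠ w in 𝓝 q, w ∈ {w | 1 < dist w z} := by
  have hc : Tendsto (fun r : ℝ => z + (r : ℂ) * (q - z)) (𝓝[>] 1) (𝓝 q) := by
    have h1 : Continuous fun r : ℝ => z + (r : ℂ) * (q - z) := by fun_prop
    have h2 := (h1.tendsto 1).mono_left (nhdsWithin_le_nhds (s := Ioi 1))
    have e : z + ((1 : ℝ) : ℂ) * (q - z) = q := by push_cast; ring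
    rwa [e] at h2
  have h3 : ∃ᶠ r : ℝ in 𝓝[>] 1, z + (r : ℂ) * (q - z) ∈ {w | 1 < dist w z} := by
    refine Eventually.frequently ?_
    filter_upwards [self_mem_nhdsWithin] with r hr
    have hr : (1 : ℝ) < r := hr
    show 1 < dist (z + (r : ℂ) * (q - z)) z
    rw [dist_eq_norm, add_sub_cancel_left, norm_mul, Complex.norm_real, Real.norm_eq_abs,
      abs_of_pos (by linarith), ← dist_eq_norm, hq, mul_one]
    exact hr
  exact hc.frequently h3

/-- **The windows of a prism centre.** -/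
theorem wins259 (P : Prism259 T z c) (h : Irr U T) (hmn : Mq259 U T) :
    ∃ L R : Fin 6 → ℝ, Wins259 U T z L R := by
  have hp3 : 0 < Real.pi / 3 := by positivity
  have hne : ∀ x, (closure (SD448 U z x)).Nonempty := by
    intro x
    obtain ⟨i, rfl⟩ := P.surj x
    obtain ⟨q, m, hq, -, hm, ht⟩ := P.solid h hmn i
    obtain ⟨s, hs⟩ := exists_cis (Prism259.norm_rot hq hm)
    refine ⟨s, subset_closure ?_⟩
    show Ray (U (c i)) z (cis s)
    rw [← hs]
    exact h.ray_of_tau ht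
  have hcos : ∀ x θ, Side429 U z (cis θ) x → ∀ s ∈ closure (SD448 U z x), 0 < Real.cos (s - θ) :=
    fun x θ hs s hs' => dd_cos448 h hs s (Or.inr hs')
  have hex : ∀ x, ∃ p : ℝ × ℝ, p.1 * (Real.pi / 3) ≤ p.2 * (Real.pi / 3) ∧
      p.2 * (Real.pi / 3) < p.1 * (Real.pi / 3) + Real.pi ∧
      p.1 * (Real.pi / 3) ∈ closure (SD448 U z x) ∧ p.2 * (Real.pi / 3) ∈ closure (SD448 U z x) ∧
      ∀ s ∈ closure (SD448 U z x), ∃ n : ℤ, p.1 * (Real.pi / 3) + 2 * Real.pi * n ≤ s ∧
        s ≤ p.2 * (Real.pi / 3) + 2 * Real.pi * n := by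
    intro x
    obtain ⟨θ, hθ⟩ := exists_side259 P h hmn x
    obtain ⟨l, r, h1, h2, h3, h4, h5⟩ := hull_of448 isClosed_closure
      (fun s n => clo_int448 (U := U) (z := z) (i := x) s n) (hne x) (hcos x θ hθ)
    refine ⟨(l / (Real.pi / 3), r / (Real.pi / 3)), ?_⟩
    simp only
    rw [div_mul_cancel₀ _ hp3.ne', div_mul_cancel₀ _ hp3.ne']
    exact ⟨h1, h2, h3, h4, h5⟩
  choose p hle hlt hl hr hmem using hex
  have hside : ∀ x θ, (∀ s ∈ closure (SD448 U z x), 0 < Real.cos (s - θ * (Real.pi / 3))) →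
      ∃ n : ℤ, θ - 3 / 2 < (p x).1 + 6 * n ∧ (p x).2 + 6 * n < θ + 3 / 2 := by
    intro x θ hc
    obtain ⟨n, h1, h2⟩ := side_of448 (fun s n => clo_int448 (U := U) (z := z) (i := x) s n)
      (hle x) (hlt x) (hl x) (hr x) hc
    refine ⟨n, ?_, ?_⟩
    · apply scale_lt259
      have e1 : (θ - 3 / 2) * (Real.pi / 3) = θ * (Real.pi / 3) - Real.pi / 2 := by ring
      have e2 : ((p x).1 + 6 * n) * (Real.pi / 3) = (p x).1 * (Real.pi / 3) + 2 * Real.pi * n := by
        ring
      rw [e1, e2]; exact h1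
    · apply scale_lt259
      have e1 : (θ + 3 / 2) * (Real.pi / 3) = θ * (Real.pi / 3) + Real.pi / 2 := by ring
      have e2 : ((p x).2 + 6 * n) * (Real.pi / 3) = (p x).2 * (Real.pi / 3) + 2 * Real.pi * n := by
        ring
      rw [e1, e2]; exact h2
  have hback : ∀ x θ, (∀ s ∈ closure (SD448 U z x), Real.cos (s - θ * (Real.pi / 3)) < 0) →
      ∃ n : ℤ, θ + 3 / 2 < (p x).1 + 6 * n ∧ (p x).2 + 6 * n < θ + 9 / 2 := by
    intro x θ hc
    obtain ⟨n, h1, h2⟩ := hside x (θ + 3) (fun s hs => by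
      have e : s - (θ + 3) * (Real.pi / 3) = s - θ * (Real.pi / 3) - Real.pi := by ring
      rw [e, Real.cos_sub_pi]
      have := hc s hs
      linarith)
    exact ⟨n, by linarith, by linarith⟩
  have hmem' : ∀ x, ∀ s : ℝ, s * (Real.pi / 3) ∈ closure (SD448 U z x) →
      ∃ n : ℤ, (p x).1 + 6 * n ≤ s ∧ s ≤ (p x).2 + 6 * n := by
    intro x s hs
    obtain ⟨n, h1, h2⟩ := hmem x _ hs
    refine ⟨n, ?_, ?_⟩
    · apply scale259
      have e2 : ((p x).1 + 6 * n) * (Real.pi / 3) = (p x).1 * (Real.pi / 3) + 2 * Real.pi * n := by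
        ring
      rw [e2]; exact h1
    · apply scale259
      have e2 : ((p x).2 + 6 * n) * (Real.pi / 3) = (p x).2 * (Real.pi / 3) + 2 * Real.pi * n := by
        ring
      rw [e2]; exact h2
  -- sides of the colours of a constant palette
  have hray : ∀ s ∈ Lc T z, ∀ x ∈ T (pt z s),
      (InnN U z (pt z s) x → ∀ t ∈ closure (SD448 U z x), 0 < Real.cos (t - s * (Real.pi / 3))) ∧
      (OutN U z (pt z s) x → ∀ t ∈ closure (SD448 U z x),
        Real.cos (t - s * (Real.pi / 3)) < 0) := by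
    intro s hs x hx
    have e : pt z s - z = cis (s * (Real.pi / 3)) := by unfold pt; ring
    constructor
    · intro hi t ht
      have h1 : closure (SD448 U z x) ⊆ {t | 0 ≤ Real.cos (t - s * (Real.pi / 3))} := by
        refine closure_minimal (fun t ht => ?_) (isClosed_le continuous_const (by fun_prop))
        have h2 := hi.ray h.mx (dist_pt z s) ht
        rw [e, ip_cis429] at h2
        exact h2
      exact lt_of_le_of_ne (h1 ht) (perp259 h hs hx ht).symm
    · intro hi t ht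
      have h1 : closure (SD448 U z x) ⊆ {t | Real.cos (t - s * (Real.pi / 3)) ≤ 0} := by
        refine closure_minimal (fun t ht => ?_) (isClosed_le (by fun_prop) continuous_const)
        have h2 := hi.ray h.mx (dist_pt z s) ht
        rw [e, ip_cis429] at h2
        exact h2
      exact lt_of_le_of_ne (h1 ht) (perp259 h hs hx ht)
  refine ⟨fun x => (p x).1, fun x => (p x).2, ?_⟩
  constructor
  · exact fun x => scale259 (hle x)
  · intro x
    apply scale_lt259
    have e : ((p x).1 + 3) * (Real.pi / 3) = (p x).1 * (Real.pi / 3) + Real.pi := by ring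
    rw [e]; exact hlt x
  · exact fun x => closure_dr259.2 (hl x)
  · exact fun x => closure_dr259.2 (hr x)
  · exact fun x s hs => hmem' x s (closure_dr259.1 hs)
  · -- cover
    intro s
    have hden : ∃ x, s * (Real.pi / 3) ∈ closure (SD448 U z x) := by
      by_contra hcon
      push Not at hcon
      have h1 : ∀ᶠ t in 𝓝 (s * (Real.pi / 3)), ∀ x, t ∉ closure (SD448 U z x) :=
        eventually_all.2 fun x => isClosed_closure.isOpen_compl.mem_nhds (hcon x)
      obtain ⟨W, hW, hWo, hs⟩ := _root_.mem_nhds_iff.1 h1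
      obtain ⟨t, ht, x, hx⟩ := P.dense h hmn hWo ⟨_, hs⟩
      exact hW ht x (subset_closure hx)
    obtain ⟨x, hx⟩ := hden
    exact ⟨x, hmem' x s hx⟩
  · -- disjoint windows
    rintro a b ⟨q, hq, hT⟩ s n m h1 h2 h3 h4
    obtain ⟨v, hv, k1, k2⟩ := P.sides h hmn hq hT
    obtain ⟨θ, hθ⟩ := exists_cis (u := v) (by
      rw [dist_eq_norm] at hq
      rcases hv with rfl | rfl
      · exact hq
      · rw [norm_neg]; exact hq)
    obtain ⟨τ, hτ⟩ : ∃ τ, θ = τ * (Real.pi / 3) := ⟨θ / (Real.pi / 3), by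
      rw [div_mul_cancel₀ _ hp3.ne']⟩
    rw [hθ, hτ] at k1 k2
    obtain ⟨n', g1, g2⟩ := hside a τ (hcos a _ k1)
    have e : -cis (τ * (Real.pi / 3)) = cis (τ * (Real.pi / 3) + Real.pi) := by
      rw [cis_add_pi326]
    rw [e] at k2
    obtain ⟨m', g3, g4⟩ := hback b τ (fun t ht => by
      have h5 := hcos b _ k2 t ht
      have e2 : t - (τ * (Real.pi / 3) + Real.pi) = t - τ * (Real.pi / 3) - Real.pi := by ring
      rw [e2, Real.cos_sub_pi] at h5
      linarith)
    -- integers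
    have e1 : (0 : ℝ) < 6 * ((m' - m - (n' - n) : ℤ) : ℝ) := by push_cast; linarith
    have e2 : 6 * ((m' - m - (n' - n) : ℤ) : ℝ) < 6 := by push_cast; linarith
    have e3 : (0 : ℤ) < m' - m - (n' - n) := by
      have : (0 : ℝ) < ((m' - m - (n' - n) : ℤ) : ℝ) := by linarith
      exact_mod_cast this
    have e4 : m' - m - (n' - n) < 1 := by
      have : ((m' - m - (n' - n) : ℤ) : ℝ) < 1 := by linarith
      exact_mod_cast this
    omega
  · -- letters
    intro s hs x hx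
    rcases out_or_inn h.mx (h.sub _ hx) (z := z) with h1 | h1
    · exact Or.inr ⟨h1, hback x s ((hray s hs x hx).2 h1)⟩
    · exact Or.inl ⟨h1, hside x s ((hray s hs x hx).1 h1)⟩
  · intro s hs
    obtain ⟨x, hx, hf⟩ := exists_side_of259 h (freq_in259 (dist_pt z s))
    exact ⟨x, hx, innN_of h hf⟩
  · intro s hs
    obtain ⟨x, hx, hf⟩ := exists_side_of259 h (freq_out259 (dist_pt z s))
    exact ⟨x, hx, outN_of h hf⟩

end Vale.Agent.P032.H259
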