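import Vale.Agent.P032.H259.Prism2

/-!
# P032: tile windows of a prism centre

`tiles259` : the colours of a prism centre (in cyclic order `c 0, …, c 5`) have windows
`[b i, b (i + 1)]` (units of 60 degrees) which follow one another around the circle; all directions
strictly inside a window are solid directions of its colour, the ends are limits of solid
directions, and every letter near a generic direction is strictly in front or strictly behind.
-/

open Set Filter Topology Metric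

noncomputable section

namespace Vale.Agent.P032.H259

open Vale.Agent.P032.Six Vale.Agent.P032.Sweep Vale.Agent.P032.S5.H767 Vale.Agent.P032.S5.H122
  Vale.Agent.P032.H429 Vale.Agent.P032.H187 Vale.Agent.P032.H158 Vale.Agent.P032.H448

variable {U : Fin 6 → Set ℂ} {T : ℂ → Set (Fin 6)} {z : ℂ} {c : Fin 6 → Fin 6} {L R : Fin 6 → ℝ}

/-- directions strictly between two limits of solid directions are solid -/
theorem between259 (h : Irr U T) {x : Fin 6} {a b t : ℝ} (ha : a ∈ closure (Dr U z x))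
    (hb : b ∈ closure (Dr U z x)) (h1 : a < t) (h2 : t < b) (h3 : b < a + 3) : t ∈ Dr U z x := by
  obtain ⟨ε, hε⟩ : ∃ ε, ε = (a + 3 - b) / 2 := ⟨_, rfl⟩
  have he : 0 < ε := by rw [hε]; linarith
  rw [mem_closure_iff_frequently] at ha hb
  obtain ⟨a', ha1, ha2⟩ := (ha.and_eventually
    (Ioo_mem_nhds (show a - ε < a by linarith) h1)).exists
  obtain ⟨b', hb1, hb2⟩ := (hb.and_eventually
    (Ioo_mem_nhds h2 (show b < b + ε by linarith))).exists
  have hp : 0 < Real.pi / 3 := by positivity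
  refine fill259 h (s1 := a' * (Real.pi / 3)) (s2 := b' * (Real.pi / 3)) ha1 hb1 ?_ ?_ ?_
  · exact mul_lt_mul_of_pos_right ha2.2 hp
  · exact mul_lt_mul_of_pos_right hb2.1 hp
  · have h4 : b' < a' + 3 := by
      have := ha2.1
      have := hb2.2
      linarith
    have h5 := mul_lt_mul_of_pos_right h4 hp
    linarith

theorem clo_int259 {i : Fin 6} {s : ℝ} (n : ℤ) (hs : s ∈ closure (Dr U z i)) :
    s + 6 * n ∈ closure (Dr U z i) := by
  rw [closure_dr259] at hs ⊢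
  have e : (s + 6 * n) * (Real.pi / 3) = s * (Real.pi / 3) + 2 * Real.pi * n := by ring
  rw [e]
  exact (clo_int448 _ n).2 hs

/-- windows (hulls of solid directions, or sub-windows) -/
structure TWin259 (U : Fin 6 → Set ℂ) (T : ℂ → Set (Fin 6)) (z : ℂ) (L R : Fin 6 → ℝ) :
    Prop where
  le : ∀ x, L x ≤ R x
  lt : ∀ x, R x < L x + 3
  hl : ∀ x, L x ∈ closure (Dr U z x)
  hr : ∀ x, R x ∈ closure (Dr U z x)
  cover : ∀ s : ℝ, ∃ x, ∃ n : ℤ, L x + 6 * n ≤ s ∧ s ≤ R x + 6 * n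
  disj : ∀ a b, (∃ q, dist q z = 1 ∧ T q = {a, b}) → ∀ (s : ℝ) (n m : ℤ),
    L a + 6 * n ≤ s → s ≤ R a + 6 * n → L b + 6 * m ≤ s → s ≤ R b + 6 * m → False
  lett : ∀ s ∈ Lc T z, ∀ x ∈ T (pt z s),
    (InnN U z (pt z s) x ∧ ∃ n : ℤ, s - 3 / 2 < L x + 6 * n ∧ R x + 6 * n < s + 3 / 2) ∨
      (OutN U z (pt z s) x ∧ ∃ n : ℤ, s + 3 / 2 < L x + 6 * n ∧ R x + 6 * n < s + 9 / 2)
  inn : ∀ s ∈ Lc T z, ∃ x ∈ T (pt z s), InnN U z (pt z s) x
  out : ∀ s ∈ Lc T z, ∃ x ∈ T (pt z s), OutN U z (pt z s) x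

theorem Wins259.tw (W : Wins259 U T z L R) : TWin259 U T z L R where
  le := W.le
  lt := W.lt
  hl := W.hl
  hr := W.hr
  cover := W.cover
  disj := W.disj
  lett := W.lett
  inn := W.inn
  out := W.out

/-- sub-windows -/
theorem TWin259.sub (W : TWin259 U T z L R) (h : Irr U T) {L' R' : Fin 6 → ℝ}
    (hs : ∀ x, ∃ n : ℤ, L x + 6 * n ≤ L' x ∧ L' x ≤ R' x ∧ R' x ≤ R x + 6 * n)
    (hc : ∀ s : ℝ, ∃ x, ∃ n : ℤ, L' x + 6 * n ≤ s ∧ s ≤ R' x + 6 * n) : TWin259 U T z L' R' := by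
  have hbet : ∀ x, ∀ n : ℤ, ∀ s, L x + 6 * n ≤ s → s ≤ R x + 6 * n → s ∈ closure (Dr U z x) := by
    intro x n s h1 h2
    rcases h1.eq_or_lt with h1 | h1
    · rw [← h1]; exact clo_int259 n (W.hl x)
    rcases h2.eq_or_lt with h2 | h2
    · rw [h2]; exact clo_int259 n (W.hr x)
    refine subset_closure (between259 h (clo_int259 n (W.hl x)) (clo_int259 n (W.hr x)) h1 h2 ?_)
    linarith [W.lt x]
  refine ⟨?_, ?_, ?_, ?_, hc, ?_, ?_, W.inn, W.out⟩
  · intro x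
    obtain ⟨n, h1, h2, h3⟩ := hs x
    exact h2
  · intro x
    obtain ⟨n, h1, h2, h3⟩ := hs x
    linarith [W.lt x]
  · intro x
    obtain ⟨n, h1, h2, h3⟩ := hs x
    exact hbet x n _ h1 (h2.trans h3)
  · intro x
    obtain ⟨n, h1, h2, h3⟩ := hs x
    exact hbet x n _ (h1.trans h2) h3
  · intro a b hq s n m h1 h2 h3 h4
    obtain ⟨p, p1, p2, p3⟩ := hs a
    obtain ⟨r, r1, r2, r3⟩ := hs b
    refine W.disj a b hq s (n + p) (m + r) ?_ ?_ ?_ ?_ <;> push_cast <;> linarith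
  · intro s hs' x hx
    obtain ⟨p, p1, p2, p3⟩ := hs x
    rcases W.lett s hs' x hx with ⟨h1, n, h2, h3⟩ | ⟨h1, n, h2, h3⟩
    · exact Or.inl ⟨h1, n - p, by push_cast; linarith, by push_cast; linarith⟩
    · exact Or.inr ⟨h1, n - p, by push_cast; linarith, by push_cast; linarith⟩

/-- the reversed order -/
theorem neg259 (P : Prism259 T z c) : Prism259 T z (fun i => c (-i)) where
  inj := fun i j hij => by
    have := P.inj hij
    exact neg_injective this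
  all := P.all
  e2 := fun i => by
    obtain ⟨q, hq, hT⟩ := P.e2 (-(i + 2))
    refine ⟨q, hq, ?_⟩
    have e : -(i + 2) + 2 = -i := by
      have : ∀ i : Fin 6, -(i + 2) + 2 = -i := by decide
      exact this i
    rw [hT, e, Set.pair_comm]
  e3 := fun i => by
    obtain ⟨q, hq, hT⟩ := P.e3 (-(i + 3))
    refine ⟨q, hq, ?_⟩
    have e : -(i + 3) + 3 = -i := by
      have : ∀ i : Fin 6, -(i + 3) + 3 = -i := by decide
      exact this i
    rw [hT, e, Set.pair_comm]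

theorem arcs259 (P : Prism259 T z c) (W : TWin259 U T z L R) :
    Arcs448 (fun i => L (c i)) (fun i => R (c i)) where
  le i := W.le _
  lt i := W.lt _
  cover s := by
    obtain ⟨x, n, h1⟩ := W.cover s
    obtain ⟨i, rfl⟩ := P.surj x
    exact ⟨i, n, h1⟩
  disj i j hj n m s h1 h2 h3 h4 := by
    have key : ∃ q, dist q z = 1 ∧ T q = {c i, c j} := by
      rcases hj with rfl | rfl | rfl
      · exact P.e2 i
      · exact P.e3 i
      · obtain ⟨q, hq, hT⟩ := P.e2 (i + 4)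
        refine ⟨q, hq, ?_⟩
        have e : i + 4 + 2 = i := by
          have : ∀ i : Fin 6, i + 4 + 2 = i := by decide
          exact this i
        rw [hT, e, Set.pair_comm]
    exact W.disj (c i) (c j) key s n m h1 h2 h3 h4

/-- **Tile windows of a prism centre.** -/
structure Tile259 (U : Fin 6 → Set ℂ) (T : ℂ → Set (Fin 6)) (z : ℂ) (c : Fin 6 → Fin 6)
    (b : ℤ → ℝ) (L R : Fin 6 → ℝ) : Prop where
  pri : Prism259 T z c
  win : TWin259 U T z L R
  mono : ∀ i, b i ≤ b (i + 1)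
  per : ∀ i, b (i + 6) = b i + 6
  left : ∀ i : Fin 6, L (c i) = b (i.val : ℤ)
  right : ∀ i : Fin 6, R (c i) = b ((i.val : ℤ) + 1)

theorem per_int259 {b : ℤ → ℝ} (hper : ∀ i, b (i + 6) = b i + 6) (i q : ℤ) :
    b (i + 6 * q) = b i + 6 * q := by
  induction q using Int.induction_on with
  | zero => simp
  | succ q ih =>
    have e : i + 6 * ((q : ℤ) + 1) = (i + 6 * q) + 6 := by ring
    rw [e, hper, ih]; push_cast; ring
  | pred q ih =>
    have h1 := hper (i + 6 * (-(q : ℤ) - 1))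
    have e : i + 6 * (-(q : ℤ) - 1) + 6 = i + 6 * (-(q : ℤ)) := by ring
    rw [e, ih] at h1
    push_cast at h1 ⊢
    linarith

theorem exists_tile259 {b : ℤ → ℝ} (hper : ∀ i, b (i + 6) = b i + 6) (s : ℝ) :
    ∃ (i : Fin 6) (q : ℤ), b (i.val : ℤ) + 6 * q ≤ s ∧ s ≤ b ((i.val : ℤ) + 1) + 6 * q := by
  obtain ⟨q, hq⟩ : ∃ q : ℤ, q = ⌊(s - b 0) / 6⌋ := ⟨_, rfl⟩
  have h1 : b 0 + 6 * q ≤ s := by
    have := Int.floor_le ((s - b 0) / 6)
    rw [← hq] at this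
    linarith
  have h2 : s < b 0 + 6 * q + 6 := by
    have := Int.lt_floor_add_one ((s - b 0) / 6)
    rw [← hq] at this
    linarith
  have h6 : b 6 = b 0 + 6 := by simpa using hper 0
  by_cases k1 : s ≤ b 1 + 6 * q
  · exact ⟨0, q, by simpa using h1, by simpa using k1⟩
  by_cases k2 : s ≤ b 2 + 6 * q
  · refine ⟨1, q, ?_, ?_⟩
    · show b ((1 : ℕ) : ℤ) + 6 * q ≤ s
      rw [show ((1 : ℕ) : ℤ) = 1 by norm_num]; linarith
    · show s ≤ b (((1 : ℕ) : ℤ) + 1) + 6 * q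
      rw [show ((1 : ℕ) : ℤ) + 1 = 2 by norm_num]; linarith
  by_cases k3 : s ≤ b 3 + 6 * q
  · refine ⟨2, q, ?_, ?_⟩
    · show b ((2 : ℕ) : ℤ) + 6 * q ≤ s
      rw [show ((2 : ℕ) : ℤ) = 2 by norm_num]; linarith
    · show s ≤ b (((2 : ℕ) : ℤ) + 1) + 6 * q
      rw [show ((2 : ℕ) : ℤ) + 1 = 3 by norm_num]; linarith
  by_cases k4 : s ≤ b 4 + 6 * q
  · refine ⟨3, q, ?_, ?_⟩
    · show b ((3 : ℕ) : ℤ) + 6 * q ≤ s
      rw [show ((3 : ℕ) : ℤ) = 3 by norm_num]; linarith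
    · show s ≤ b (((3 : ℕ) : ℤ) + 1) + 6 * q
      rw [show ((3 : ℕ) : ℤ) + 1 = 4 by norm_num]; linarith
  by_cases k5 : s ≤ b 5 + 6 * q
  · refine ⟨4, q, ?_, ?_⟩
    · show b ((4 : ℕ) : ℤ) + 6 * q ≤ s
      rw [show ((4 : ℕ) : ℤ) = 4 by norm_num]; linarith
    · show s ≤ b (((4 : ℕ) : ℤ) + 1) + 6 * q
      rw [show ((4 : ℕ) : ℤ) + 1 = 5 by norm_num]; linarith
  · refine ⟨5, q, ?_, ?_⟩
    · show b ((5 : ℕ) : ℤ) + 6 * q ≤ s
      rw [show ((5 : ℕ) : ℤ) = 5 by norm_num]; linarith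
    · show s ≤ b (((5 : ℕ) : ℤ) + 1) + 6 * q
      rw [show ((5 : ℕ) : ℤ) + 1 = 6 by norm_num, h6]; linarith

theorem ix_val259 (i : Fin 6) : ix448 (i.val : ℤ) = i := by
  have h := ix_of448 0 i.isLt
  rw [mul_zero, zero_add] at h
  rw [h]

/-- the tiles from the arcs -/
theorem tile_of259 (P : Prism259 T z c) (W : TWin259 U T z L R) (h : Irr U T) {b : ℤ → ℝ}
    (hb : Tile448 (fun i => L (c i)) (fun i => R (c i)) ix448 b) :
    ∃ L' R' : Fin 6 → ℝ, Tile259 U T z c b L' R' ∧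
      ∀ x, ∃ n : ℤ, L x + 6 * n = L' x ∧ R' x ≤ R x + 6 * n := by
  have hbij : Function.Bijective c := P.inj.bijective_of_finite
  obtain ⟨σ, hσ⟩ : ∃ σ : Fin 6 → Fin 6, ∀ i, σ (c i) = i :=
    ⟨Function.invFun c, Function.leftInverse_invFun P.inj⟩
  have hσ' : ∀ x, c (σ x) = x := by
    intro x
    obtain ⟨i, rfl⟩ := hbij.2 x
    rw [hσ]
  have hsub : ∀ x, ∃ n : ℤ, b ((σ x).val : ℤ) = L x + 6 * n ∧
      b (((σ x).val : ℤ) + 1) ≤ R x + 6 * n := by
    intro x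
    obtain ⟨n, h1, h2⟩ := hb.left ((σ x).val : ℤ)
    simp only [ix_val259, hσ'] at h1 h2
    exact ⟨n, h1, h2⟩
  refine ⟨fun x => b ((σ x).val : ℤ), fun x => b (((σ x).val : ℤ) + 1), ⟨P, ?_, hb.mono, hb.per,
    fun i => ?_, fun i => ?_⟩, ?_⟩
  · refine W.sub h (fun x => ?_) (fun s => ?_)
    · obtain ⟨n, h1, h2⟩ := hsub x
      exact ⟨n, h1.ge, hb.mono _, h2⟩
    · obtain ⟨i, q, h1, h2⟩ := exists_tile259 hb.per s
      exact ⟨c i, q, by simpa only [hσ] using h1, by simpa only [hσ] using h2⟩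
  · simp only [hσ]
  · simp only [hσ]
  · intro x
    obtain ⟨n, h1, h2⟩ := hsub x
    exact ⟨n, h1.symm, h2⟩

/-- **Tile windows of a prism centre.** -/
theorem tiles259 (P : Prism259 T z c) (h : Irr U T) (hmn : Mq259 U T) :
    ∃ (c' : Fin 6 → Fin 6) (b : ℤ → ℝ) (L R L' R' : Fin 6 → ℝ),
      (c' = c ∨ c' = fun i => c (-i)) ∧ Wins259 U T z L R ∧ Tile259 U T z c' b L' R' ∧
      ∀ x, ∃ n : ℤ, L x + 6 * n = L' x ∧ R' x ≤ R x + 6 * n := by
  obtain ⟨L, R, W⟩ := wins259 P h hmn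
  rcases (arcs259 P W.tw).exists_tiles with ⟨b, hb⟩ | ⟨b, hb⟩
  · obtain ⟨L', R', h1, h2⟩ := tile_of259 P W.tw h hb
    exact ⟨c, b, L, R, L', R', Or.inl rfl, W, h1, h2⟩
  · have hb' : Tile448 (fun i => L ((fun i => c (-i)) i)) (fun i => R ((fun i => c (-i)) i))
        ix448 b := ⟨hb.mono, hb.per, hb.left⟩
    obtain ⟨L', R', h1, h2⟩ := tile_of259 (neg259 P) W.tw h hb'
    exact ⟨_, b, L, R, L', R', Or.inr rfl, W, h1, h2⟩

end Vale.Agent.P032.H259
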