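import Vale.Agent.P032.H259.Prism3

/-!
# P032: the windows of a prism centre as `WinData`
-/

open Set Filter Topology Metric

noncomputable section

namespace Vale.Agent.P032.H259

open Vale.Agent.P032.Six Vale.Agent.P032.Sweep Vale.Agent.P032.S5.H767 Vale.Agent.P032.S5.H122
  Vale.Agent.P032.H429 Vale.Agent.P032.H187 Vale.Agent.P032.H158 Vale.Agent.P032.H448

variable {U : Fin 6 → Set ℂ} {T : ℂ → Set (Fin 6)} {z : ℂ} {c : Fin 6 → Fin 6} {L R : Fin 6 → ℝ}

theorem cos_clo259 {x : Fin 6} {s t : ℝ}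
    (hc : ∀ v, Ray (U x) z (cis v) → 0 ≤ Real.cos (v - s * (Real.pi / 3)))
    (ht : t ∈ closure (Dr U z x)) : 0 ≤ Real.cos ((t - s) * (Real.pi / 3)) := by
  have h1 : closure (Dr U z x) ⊆ {t | 0 ≤ Real.cos ((t - s) * (Real.pi / 3))} := by
    refine closure_minimal (fun t ht => ?_) (isClosed_le continuous_const (by fun_prop))
    have h2 := hc _ ht
    show 0 ≤ Real.cos ((t - s) * (Real.pi / 3))
    rw [sub_mul]; exact h2
  exact h1 ht

theorem cos_clo_neg259 {x : Fin 6} {s t : ℝ}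
    (hc : ∀ v, Ray (U x) z (cis v) → Real.cos (v - s * (Real.pi / 3)) ≤ 0)
    (ht : t ∈ closure (Dr U z x)) : Real.cos ((t - s) * (Real.pi / 3)) ≤ 0 := by
  have h1 : closure (Dr U z x) ⊆ {t | Real.cos ((t - s) * (Real.pi / 3)) ≤ 0} := by
    refine closure_minimal (fun t ht => ?_) (isClosed_le (by fun_prop) continuous_const)
    have h2 := hc _ ht
    show Real.cos ((t - s) * (Real.pi / 3)) ≤ 0
    rw [sub_mul]; exact h2
  exact h1 ht

theorem cos_pos259 {s t : ℝ} {n : ℤ} (h1 : s - 3 / 2 < t + 6 * n) (h2 : t + 6 * n < s + 3 / 2) :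
    0 < Real.cos ((t - s) * (Real.pi / 3)) := by
  have hp : 0 < Real.pi / 3 := by positivity
  have e : (t - s) * (Real.pi / 3) = (t + 6 * n - s) * (Real.pi / 3) - n * (2 * Real.pi) := by
    ring
  rw [e, Real.cos_sub_int_mul_two_pi]
  have k1 : -(3 / 2) * (Real.pi / 3) < (t + 6 * n - s) * (Real.pi / 3) :=
    mul_lt_mul_of_pos_right (by linarith) hp
  have k2 : (t + 6 * n - s) * (Real.pi / 3) < 3 / 2 * (Real.pi / 3) :=
    mul_lt_mul_of_pos_right (by linarith) hp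
  exact Real.cos_pos_of_mem_Ioo ⟨by linarith, by linarith⟩

theorem cos_neg259 {s t : ℝ} {n : ℤ} (h1 : s + 3 / 2 < t + 6 * n) (h2 : t + 6 * n < s + 9 / 2) :
    Real.cos ((t - s) * (Real.pi / 3)) < 0 := by
  have h3 := cos_pos259 (s := s + 3) (t := t) (n := n) (by linarith) (by linarith)
  have e : (t - (s + 3)) * (Real.pi / 3) = (t - s) * (Real.pi / 3) - Real.pi := by ring
  rw [e, Real.cos_sub_pi] at h3
  linarith

/-- a colour which is inside near a generic point of the circle has its window in front -/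
theorem TWin259.win_front (W : TWin259 U T z L R) (h : Irr U T) {s : ℝ} (hs : s ∈ Lc T z)
    {x : Fin 6} (hx : x ∈ T (pt z s)) (hi : InnN U z (pt z s) x) :
    ∃ n : ℤ, s - 3 / 2 < L x + 6 * n ∧ R x + 6 * n < s + 3 / 2 := by
  rcases W.lett s hs x hx with h1 | ⟨-, n, h1, h2⟩
  · exact h1.2
  · exfalso
    have e : pt z s - z = cis (s * (Real.pi / 3)) := by unfold pt; ring
    have h3 := cos_clo259 (s := s) (fun v hv => by
      have h2 := hi.ray h.mx (dist_pt z s) hv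
      rw [e, ip_cis429] at h2
      exact h2) (W.hl x)
    have h4 := cos_neg259 h1 (by linarith [W.le x] : L x + 6 * n < s + 9 / 2)
    linarith

theorem TWin259.win_back (W : TWin259 U T z L R) (h : Irr U T) {s : ℝ} (hs : s ∈ Lc T z)
    {x : Fin 6} (hx : x ∈ T (pt z s)) (hi : OutN U z (pt z s) x) :
    ∃ n : ℤ, s + 3 / 2 < L x + 6 * n ∧ R x + 6 * n < s + 9 / 2 := by
  rcases W.lett s hs x hx with ⟨-, n, h1, h2⟩ | h1
  · exfalso
    have e : pt z s - z = cis (s * (Real.pi / 3)) := by unfold pt; ring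
    have h3 := cos_clo_neg259 (s := s) (fun v hv => by
      have h2 := hi.ray h.mx (dist_pt z s) hv
      rw [e, ip_cis429] at h2
      exact h2) (W.hl x)
    have h4 := cos_pos259 h1 (by linarith [W.le x] : L x + 6 * n < s + 3 / 2)
    linarith
  · exact h1.2

theorem TWin259.front (W : TWin259 U T z L R) (h : Irr U T) {s : ℝ} (hs : s ∈ Lc T z) :
    ∃ x ∈ T (pt z s), ∃ n : ℤ, s - 3 / 2 < L x + 6 * n ∧ R x + 6 * n < s + 3 / 2 := by
  obtain ⟨x, hx, hi⟩ := W.inn s hs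
  exact ⟨x, hx, W.win_front h hs hx hi⟩

theorem TWin259.back (W : TWin259 U T z L R) (h : Irr U T) {s : ℝ} (hs : s ∈ Lc T z) :
    ∃ x ∈ T (pt z s), ∃ n : ℤ, s + 3 / 2 < L x + 6 * n ∧ R x + 6 * n < s + 9 / 2 := by
  obtain ⟨x, hx, hi⟩ := W.out s hs
  exact ⟨x, hx, W.win_back h hs hx hi⟩

theorem TWin259.side (W : TWin259 U T z L R) {s : ℝ} (hs : s ∈ Lc T z) {x : Fin 6}
    (hx : x ∈ T (pt z s)) :
    (∃ n : ℤ, s - 3 / 2 < L x + 6 * n ∧ R x + 6 * n < s + 3 / 2) ∨
      ∃ n : ℤ, s + 3 / 2 < L x + 6 * n ∧ R x + 6 * n < s + 9 / 2 :=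
  (W.lett s hs x hx).imp And.right And.right

end Vale.Agent.P032.H259
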