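import Vale.Agent.P032.H259.Prism4
import Vale.Agent.P032.S5.H11.CarrH

/-!
# P032: the tile windows of a prism centre in the order of the colours

`TWin259.perm` : renaming the colours.  `tile_wn259` : the windows at a time are tiles (the first
sector of the next colour is the last sector of the colour, the lengths add up to six).
`tile_data259` : everything for a prism centre after renaming the colours.
-/

open Set Filter Topology Metric

noncomputable section

namespace Vale.Agent.P032.H259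

open Vale.Agent.P032.Six Vale.Agent.P032.Sweep Vale.Agent.P032.S5.H767 Vale.Agent.P032.S5.H122
  Vale.Agent.P032.H429 Vale.Agent.P032.H187 Vale.Agent.P032.H158 Vale.Agent.P032.H448

variable {U : Fin 6 → Set ℂ} {T : ℂ → Set (Fin 6)} {z : ℂ} {c : Fin 6 → Fin 6} {L R : Fin 6 → ℝ}

theorem lc_perm259 (σ : Equiv.Perm (Fin 6)) : Lc (fun x => σ ⁻¹' T x) z = Lc T z := by
  ext s
  have hinj : Function.Injective (fun A : Set (Fin 6) => σ ⁻¹' A) :=
    σ.surjective.preimage_injective
  constructor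
  · intro h
    exact Filter.Eventually.mono h fun v hv => hinj hv
  · intro h
    exact Filter.Eventually.mono h fun v hv => by
      show σ ⁻¹' T (pt z v) = σ ⁻¹' T (pt z s)
      rw [hv]

theorem pair_perm259 (σ : Equiv.Perm (Fin 6)) {q : ℂ} {a b : Fin 6}
    (h : σ ⁻¹' T q = {a, b}) : T q = {σ a, σ b} := by
  have h1 : σ '' (σ ⁻¹' T q) = σ '' {a, b} := by rw [h]
  rwa [Set.image_preimage_eq _ σ.surjective, Set.image_pair] at h1

/-- renaming the colours -/
theorem TWin259.perm (W : TWin259 U T z L R) (σ : Equiv.Perm (Fin 6)) :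
    TWin259 (fun i => U (σ i)) (fun x => σ ⁻¹' T x) z (fun i => L (σ i)) (fun i => R (σ i)) where
  le i := W.le _
  lt i := W.lt _
  hl i := W.hl _
  hr i := W.hr _
  cover s := by
    obtain ⟨x, n, h1⟩ := W.cover s
    refine ⟨σ.symm x, n, ?_⟩
    simpa using h1
  disj a b hq s n m h1 h2 h3 h4 := by
    obtain ⟨q, hq, hT⟩ := hq
    exact W.disj (σ a) (σ b) ⟨q, hq, pair_perm259 σ hT⟩ s n m h1 h2 h3 h4
  lett s hs x hx := by
    rw [lc_perm259] at hs
    exact W.lett s hs (σ x) hx
  inn s hs := by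
    rw [lc_perm259] at hs
    obtain ⟨x, hx, h1⟩ := W.inn s hs
    refine ⟨σ.symm x, ?_, ?_⟩
    · show σ (σ.symm x) ∈ T (pt z s)
      rwa [σ.apply_symm_apply]
    · have e : (fun i => U (σ i)) (σ.symm x) = U x := by simp
      unfold InnN at h1 ⊢
      rwa [e]
  out s hs := by
    rw [lc_perm259] at hs
    obtain ⟨x, hx, h1⟩ := W.out s hs
    refine ⟨σ.symm x, ?_, ?_⟩
    · show σ (σ.symm x) ∈ T (pt z s)
      rwa [σ.apply_symm_apply]
    · have e : (fun i => U (σ i)) (σ.symm x) = U x := by simp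
      unfold OutN at h1 ⊢
      rwa [e]

/-- the windows follow one another in the order of the colours -/
structure Ord259 (b : ℤ → ℝ) (L R : Fin 6 → ℝ) : Prop where
  mono : ∀ i, b i ≤ b (i + 1)
  per : ∀ i, b (i + 6) = b i + 6
  left : ∀ i : Fin 6, L i = b (i.val : ℤ)
  right : ∀ i : Fin 6, R i = b ((i.val : ℤ) + 1)

theorem len_cast259 {m n : ℤ} (h : m ≤ n) : (((n - m).toNat : ℕ) : ZMod 6) = (n : ZMod 6) - m := by
  have : ((n - m).toNat : ℤ) = n - m := Int.toNat_of_nonneg (by omega)
  have h2 : (((n - m).toNat : ℤ) : ZMod 6) = ((n - m : ℤ) : ZMod 6) := by rw [this]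
  push_cast at h2
  exact h2

theorem Ord259.sc_le {b : ℤ → ℝ} (o : Ord259 b L R) (t : ℝ) (i : Fin 6) :
    sc t (L i) ≤ sc t (R i) := by
  rw [o.left, o.right]
  exact Int.floor_le_floor (by linarith [o.mono (i.val : ℤ)])

theorem fin_succ259 : ∀ i : Fin 6, i.val < 5 → (i + 1 : Fin 6).val = i.val + 1 := by decide

theorem fin_last259 : ∀ i : Fin 6, ¬ i.val < 5 → (i + 1 : Fin 6).val = 0 := by decide

/-- the first sector of the next window -/
theorem Ord259.next {b : ℤ → ℝ} (o : Ord259 b L R) (t : ℝ) (i : Fin 6) :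
    (wn L R t (i + 1)).1 = (wn L R t i).1 + ((wn L R t i).2 : ZMod 6) := by
  have h1 : (wn L R t (i + 1)).1 = ((sc t (L (i + 1)) : ℤ) : ZMod 6) := rfl
  have h2 : (wn L R t i).1 = ((sc t (L i) : ℤ) : ZMod 6) := rfl
  have h3 : (wn L R t i).2 = (sc t (R i) - sc t (L i)).toNat := rfl
  rw [h1, h2, h3, len_cast259 (o.sc_le t i)]
  have key : ((sc t (L (i + 1)) : ℤ) : ZMod 6) = ((sc t (R i) : ℤ) : ZMod 6) := by
    rw [o.left, o.right]
    by_cases hi : i.val < 5
    · have e : ((i + 1 : Fin 6).val : ℤ) = (i.val : ℤ) + 1 := by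
        rw [fin_succ259 i hi]; push_cast; ring
      rw [e]
    · have e : (i + 1 : Fin 6).val = 0 := fin_last259 i hi
      have e' : i.val = 5 := by omega
      rw [e, e']
      have h6 : b (((5 : ℕ) : ℤ) + 1) = b ((0 : ℕ) : ℤ) + 6 * ((1 : ℤ) : ℝ) := by
        have := o.per 0
        norm_num at this ⊢
        exact this
      rw [h6, sc_int]
      push_cast
      have : (6 : ZMod 6) = 0 := by decide
      rw [this]
      ring
  rw [key]
  ring

/-- the lengths add up to six -/
theorem Ord259.sum {b : ℤ → ℝ} (o : Ord259 b L R) (t : ℝ) :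
    (wn L R t 0).2 + (wn L R t 1).2 + (wn L R t 2).2 + (wn L R t 3).2 + (wn L R t 4).2 +
      (wn L R t 5).2 = 6 := by
  have h3 : ∀ i, ((wn L R t i).2 : ℤ) = sc t (R i) - sc t (L i) := fun i => by
    have : (wn L R t i).2 = (sc t (R i) - sc t (L i)).toNat := rfl
    rw [this, Int.toNat_of_nonneg (by linarith [o.sc_le t i])]
  have l0 : L 0 = b 0 := by have := o.left 0; simpa using this
  have l1 : L 1 = b 1 := by have := o.left 1; simpa using this
  have l2 : L 2 = b 2 := by have := o.left 2; simpa using this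
  have l3 : L 3 = b 3 := by have := o.left 3; simpa using this
  have l4 : L 4 = b 4 := by have := o.left 4; simpa using this
  have l5 : L 5 = b 5 := by have := o.left 5; simpa using this
  have r0 : R 0 = b 1 := by have := o.right 0; simpa using this
  have r1 : R 1 = b 2 := by have := o.right 1; simpa using this
  have r2 : R 2 = b 3 := by have := o.right 2; simpa using this
  have r3 : R 3 = b 4 := by have := o.right 3; simpa using this
  have r4 : R 4 = b 5 := by have := o.right 4; simpa using this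
  have r5 : R 5 = b 0 + 6 * ((1 : ℤ) : ℝ) := by
    have h1 := o.right 5
    have h2 := o.per 0
    norm_num at h1 h2 ⊢
    rw [← h2]; exact h1
  have k0 := h3 0
  have k1 := h3 1
  have k2 := h3 2
  have k3 := h3 3
  have k4 := h3 4
  have k5 := h3 5
  rw [l0, r0] at k0
  rw [l1, r1] at k1
  rw [l2, r2] at k2
  rw [l3, r3] at k3
  rw [l4, r4] at k4
  rw [l5, r5, sc_int] at k5
  have : (((wn L R t 0).2 + (wn L R t 1).2 + (wn L R t 2).2 + (wn L R t 3).2 + (wn L R t 4).2 +
      (wn L R t 5).2 : ℕ) : ℤ) = 6 := by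
    push_cast
    rw [k0, k1, k2, k3, k4, k5]
    ring
  exact_mod_cast this

/-- **Everything for a prism centre**, after renaming the colours. -/
theorem tile_data259 (P : Prism259 T z c) (h : Irr U T) (hmn : Mq259 U T) :
    ∃ (σ : Equiv.Perm (Fin 6)) (b : ℤ → ℝ) (L R : Fin 6 → ℝ),
      Irr (fun i => U (σ i)) (fun x => σ ⁻¹' T x) ∧
      Prism259 (fun x => σ ⁻¹' T x) z id ∧
      TWin259 (fun i => U (σ i)) (fun x => σ ⁻¹' T x) z L R ∧ Ord259 b L R := by
  obtain ⟨c', b, L, R, L', R', -, -, W, -⟩ := tiles259 P h hmn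
  obtain ⟨σ, hσ⟩ : ∃ σ : Equiv.Perm (Fin 6), ∀ i, σ i = c' i :=
    ⟨Equiv.ofBijective c' W.pri.inj.bijective_of_finite, fun i => rfl⟩
  refine ⟨σ, b, fun i => L' (σ i), fun i => R' (σ i), h.permH σ, ?_, W.win.perm σ, ?_⟩
  · have hpre : ∀ (q : ℂ) (i j : Fin 6), T q = {c' i, c' j} → σ ⁻¹' T q = {id i, id j} := by
      intro q i j hT
      rw [hT, ← hσ i, ← hσ j]
      ext x
      simp
    refine ⟨Function.injective_id, fun i => ?_, fun i => ?_, fun i => ?_⟩
    · show σ (id i) ∈ T z
      rw [hσ]; exact W.pri.all _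
    · obtain ⟨q, hq, hT⟩ := W.pri.e2 i
      exact ⟨q, hq, hpre q _ _ hT⟩
    · obtain ⟨q, hq, hT⟩ := W.pri.e3 i
      exact ⟨q, hq, hpre q _ _ hT⟩
  · refine ⟨W.mono, W.per, fun i => ?_, fun i => ?_⟩
    · show L' (σ i) = _
      rw [hσ]; exact W.left i
    · show R' (σ i) = _
      rw [hσ]; exact W.right i

end Vale.Agent.P032.H259
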