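import Vale.Agent.P032.H187.Product

/-!
# P032: the two arc rule

`p` any point, `q₁`, `q₂` two points of `S(p)`, not antipodal; arcs of `S(z₁)` with the colours `P₁`
accumulate at `q₁`, arcs of `S(z₂)` with the colours `P₂` accumulate at `q₂`, both transversal to
`S(p)`.  Then `p` is a limit of points without the colours of `P₁` and `P₂` (`two_arc_freq`), so
`T p` is not contained in their union (`two_arc`).
`own_arc_freq` : the arcs at `q₁` and at the antipode lie on `S(p)` itself, in step.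
`anti_arc_freq` : the arcs at `q₁` and at the antipode lie on `S(p)` itself, not in step.
-/

open Set Filter Topology Metric

noncomputable section

namespace Vale.Agent.P032.H259

open Vale.Agent.P032.Six Vale.Agent.P032.S5.H767 Vale.Agent.P032.H187

variable {k : ℕ} {U : Fin k → Set ℂ} {T : ℂ → Set (Fin k)}

/-- the points at distance one from both `x` and `y` -/
def apex (σ : ℝ) (x y : ℂ) : ℂ :=
  (x + y) / 2 + ((σ * Real.sqrt (1 / ‖y - x‖ ^ 2 - 1 / 4) : ℝ) : ℂ) * (Complex.I * (y - x))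

theorem apex_dist {σ : ℝ} (hσ : σ = 1 ∨ σ = -1) {x y : ℂ} (h0 : x ≠ y) (h2 : ‖y - x‖ < 2) :
    dist (apex σ x y) x = 1 ∧ dist (apex σ x y) y = 1 := by
  have hn : 0 < ‖y - x‖ := norm_pos_iff.2 (sub_ne_zero.2 h0.symm)
  have hn2 : ‖y - x‖ ^ 2 < 4 := by nlinarith
  have hs : 0 ≤ 1 / ‖y - x‖ ^ 2 - 1 / 4 := by
    rw [sub_nonneg, div_le_div_iff₀ (by norm_num) (by positivity)]
    linarith
  obtain ⟨s, hs'⟩ : ∃ s, s = Real.sqrt (1 / ‖y - x‖ ^ 2 - 1 / 4) := ⟨_, rfl⟩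
  have hs2 : s ^ 2 = 1 / ‖y - x‖ ^ 2 - 1 / 4 := by rw [hs']; exact Real.sq_sqrt hs
  have hσ2 : σ ^ 2 = 1 := by rcases hσ with rfl | rfl <;> norm_num
  have hN : ‖y - x‖ ^ 2 = (y.re - x.re) ^ 2 + (y.im - x.im) ^ 2 := by
    rw [← Complex.normSq_eq_norm_sq, Complex.normSq_apply, Complex.sub_re, Complex.sub_im]; ring
  have hkey : ((y.re - x.re) ^ 2 + (y.im - x.im) ^ 2) * (1 / 4 + s ^ 2) = 1 := by
    rw [hs2, ← hN]; field_simp; ring
  have e1 : dist (apex σ x y) x ^ 2 = 1 := by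
    rw [sq_dist]
    unfold apex
    rw [← hs']
    simp only [Complex.add_re, Complex.add_im, Complex.mul_re, Complex.mul_im, Complex.ofReal_re,
      Complex.ofReal_im, Complex.I_re, Complex.I_im, Complex.sub_re, Complex.sub_im,
      Complex.div_ofNat_re, Complex.div_ofNat_im]
    linear_combination hkey + ((y.re - x.re) ^ 2 + (y.im - x.im) ^ 2) * s ^ 2 * hσ2
  have e2 : dist (apex σ x y) y ^ 2 = 1 := by
    rw [sq_dist]
    unfold apex
    rw [← hs']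
    simp only [Complex.add_re, Complex.add_im, Complex.mul_re, Complex.mul_im, Complex.ofReal_re,
      Complex.ofReal_im, Complex.I_re, Complex.I_im, Complex.sub_re, Complex.sub_im,
      Complex.div_ofNat_re, Complex.div_ofNat_im]
    linear_combination hkey + ((y.re - x.re) ^ 2 + (y.im - x.im) ^ 2) * s ^ 2 * hσ2
  constructor
  · have := dist_nonneg (x := apex σ x y) (y := x); nlinarith
  · have := dist_nonneg (x := apex σ x y) (y := y); nlinarith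

theorem apex_cont {σ : ℝ} {x y : ℂ} (h0 : x ≠ y) :
    ContinuousAt (fun r : ℂ × ℂ => apex σ r.1 r.2) (x, y) := by
  have hn : ‖y - x‖ ^ 2 ≠ 0 := by
    have := norm_pos_iff.2 (sub_ne_zero.2 h0.symm); positivity
  unfold apex
  have h1 : ContinuousAt (fun r : ℂ × ℂ => (1 / ‖r.2 - r.1‖ ^ 2 - 1 / 4 : ℝ)) (x, y) := by
    have h2 : ContinuousAt (fun r : ℂ × ℂ => ‖r.2 - r.1‖ ^ 2) (x, y) := by fun_prop
    exact (continuousAt_const.div h2 hn).sub continuousAt_const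
  have h3 : ContinuousAt (fun r : ℂ × ℂ =>
      ((σ * Real.sqrt (1 / ‖r.2 - r.1‖ ^ 2 - 1 / 4) : ℝ) : ℂ)) (x, y) :=
    Complex.continuous_ofReal.continuousAt.comp
      (continuousAt_const.mul (Real.continuous_sqrt.continuousAt.comp h1))
  have h4 : ContinuousAt (fun r : ℂ × ℂ => (r.1 + r.2) / 2) (x, y) := by fun_prop
  have h5 : ContinuousAt (fun r : ℂ × ℂ => Complex.I * (r.2 - r.1)) (x, y) := by fun_prop
  exact h4.add (h3.mul h5)

/-- a point at distance one from two points is one of their apexes -/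
theorem exists_apex {p x y : ℂ} (hx : dist x p = 1) (hy : dist y p = 1) (h0 : x ≠ y)
    (h2 : x + y ≠ 2 * p) : ∃ σ : ℝ, (σ = 1 ∨ σ = -1) ∧ apex σ x y = p := by
  have hn : 0 < ‖y - x‖ := norm_pos_iff.2 (sub_ne_zero.2 h0.symm)
  have hN : ‖y - x‖ ^ 2 = (y.re - x.re) ^ 2 + (y.im - x.im) ^ 2 := by
    rw [← Complex.normSq_eq_norm_sq, Complex.normSq_apply, Complex.sub_re, Complex.sub_im]; ring
  have e1 : (x.re - p.re) ^ 2 + (x.im - p.im) ^ 2 = 1 := by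
    have := sq_dist x p; rw [hx] at this; linarith
  have e2 : (y.re - p.re) ^ 2 + (y.im - p.im) ^ 2 = 1 := by
    have := sq_dist y p; rw [hy] at this; linarith
  obtain ⟨n, hn'⟩ : ∃ n, n = ‖y - x‖ ^ 2 := ⟨_, rfl⟩
  have hn0 : 0 < n := by rw [hn']; positivity
  have hnN : n = (y.re - x.re) ^ 2 + (y.im - x.im) ^ 2 := by rw [hn', hN]
  obtain ⟨s, hs⟩ : ∃ s, s = (-(p.re - (x.re + y.re) / 2) * (y.im - x.im) +
      (p.im - (x.im + y.im) / 2) * (y.re - x.re)) / n := ⟨_, rfl⟩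
  have hsn : s * n = -(p.re - (x.re + y.re) / 2) * (y.im - x.im) +
      (p.im - (x.im + y.im) / 2) * (y.re - x.re) := by rw [hs]; field_simp
  have horth : (p.re - (x.re + y.re) / 2) * (y.re - x.re) +
      (p.im - (x.im + y.im) / 2) * (y.im - x.im) = 0 := by linear_combination (e1 - e2) / 2
  have hre : p.re - (x.re + y.re) / 2 = -(s * (y.im - x.im)) := by
    have : n * (p.re - (x.re + y.re) / 2 + s * (y.im - x.im)) = 0 := by
      linear_combination (y.im - x.im) * hsn + (p.re - (x.re + y.re) / 2) * hnN +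
        (y.re - x.re) * horth
    rcases mul_eq_zero.1 this with h | h
    · exact absurd h hn0.ne'
    · linarith
  have him : p.im - (x.im + y.im) / 2 = s * (y.re - x.re) := by
    have : n * (p.im - (x.im + y.im) / 2 - s * (y.re - x.re)) = 0 := by
      linear_combination -(y.re - x.re) * hsn + (p.im - (x.im + y.im) / 2) * hnN +
        (y.im - x.im) * horth
    rcases mul_eq_zero.1 this with h | h
    · exact absurd h hn0.ne'
    · linarith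
  have hs2 : s ^ 2 * n = 1 - n / 4 := by
    have h3 : x.re - p.re = -((y.re - x.re) / 2) + s * (y.im - x.im) := by linarith
    have h4 : x.im - p.im = -((y.im - x.im) / 2) - s * (y.re - x.re) := by linarith
    rw [h3, h4] at e1
    rw [hnN] 
    linear_combination e1
  have hs2' : s ^ 2 = 1 / n - 1 / 4 := by
    field_simp
    linear_combination 4 * hs2
  have hs0 : s ≠ 0 := by
    rintro rfl
    apply h2
    apply Complex.ext
    · simp; linarith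
    · simp; linarith
  have hfin : ∀ σ : ℝ, σ * Real.sqrt (1 / n - 1 / 4) = s → apex σ x y = p := by
    intro σ hσ
    unfold apex
    rw [← hn', hσ]
    apply Complex.ext
    · simp only [Complex.add_re, Complex.mul_re, Complex.mul_im,
        Complex.ofReal_re, Complex.ofReal_im, Complex.I_re, Complex.I_im, Complex.sub_re,
        Complex.sub_im, Complex.div_ofNat_re]
      linear_combination -hre
    · simp only [Complex.add_im, Complex.mul_re, Complex.mul_im,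
        Complex.ofReal_re, Complex.ofReal_im, Complex.I_re, Complex.I_im, Complex.sub_re,
        Complex.sub_im, Complex.div_ofNat_im]
      linear_combination -him
  rcases lt_or_gt_of_ne hs0 with h | h
  · refine ⟨-1, Or.inr rfl, hfin _ ?_⟩
    rw [← hs2', Real.sqrt_sq_eq_abs, abs_of_neg h]; ring
  · refine ⟨1, Or.inl rfl, hfin _ ?_⟩
    rw [← hs2', Real.sqrt_sq_eq_abs, abs_of_pos h]; ring

theorem norm_lt_two {p x y : ℂ} (hx : dist x p = 1) (hy : dist y p = 1) (h2 : x + y ≠ 2 * p) :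
    ‖y - x‖ < 2 := by
  have e1 : (x.re - p.re) ^ 2 + (x.im - p.im) ^ 2 = 1 := by
    have := sq_dist x p; rw [hx] at this; linarith
  have e2 : (y.re - p.re) ^ 2 + (y.im - p.im) ^ 2 = 1 := by
    have := sq_dist y p; rw [hy] at this; linarith
  have hN : ‖y - x‖ ^ 2 = (y.re - x.re) ^ 2 + (y.im - x.im) ^ 2 := by
    rw [← Complex.normSq_eq_norm_sq, Complex.normSq_apply, Complex.sub_re, Complex.sub_im]; ring
  have hpos : 0 < (x.re + y.re - 2 * p.re) ^ 2 + (x.im + y.im - 2 * p.im) ^ 2 := by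
    by_contra hcon
    apply h2
    have h3 : x.re + y.re - 2 * p.re = 0 := by nlinarith [sq_nonneg (x.im + y.im - 2 * p.im)]
    have h4 : x.im + y.im - 2 * p.im = 0 := by nlinarith [sq_nonneg (x.re + y.re - 2 * p.re)]
    apply Complex.ext
    · simp; linarith
    · simp; linarith
  have h5 : ‖y - x‖ ^ 2 < 4 := by rw [hN]; nlinarith
  nlinarith [norm_nonneg (y - x)]

/-- **Two arc rule**, the points near `p`. -/
theorem two_arc_freq (h : Mx U) {p q₁ q₂ z₁ z₂ : ℂ} {P₁ P₂ : Set (Fin k)}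
    (hq₁ : dist q₁ p = 1) (hq₂ : dist q₂ p = 1) (h0 : q₁ ≠ q₂) (h2 : q₁ + q₂ ≠ 2 * p)
    (c₁ : q₁ ∈ closure (Cr U z₁ P₁)) (c₂ : q₂ ∈ closure (Cr U z₂ P₂))
    (a₁ : p ≠ z₁) (b₁ : p + z₁ ≠ 2 * q₁) (a₂ : p ≠ z₂) (b₂ : p + z₂ ≠ 2 * q₂) :
    ∃ᶠ w in 𝓝 p, ∀ t, t ∈ P₁ ∨ t ∈ P₂ → t ∉ Pal U w := by
  obtain ⟨σ, hσ, hap⟩ := exists_apex hq₁ hq₂ h0 h2
  have hlt := norm_lt_two hq₁ hq₂ h2
  have hc := apex_cont (σ := σ) h0
  have hT : Tendsto (fun r : ℂ × ℂ => apex σ r.1 r.2) (𝓝 (q₁, q₂)) (𝓝 p) := by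
    have := hc.tendsto
    simpa only [hap] using this
  have e1 : ∀ᶠ r : ℂ × ℂ in 𝓝 (q₁, q₂), r.1 ≠ r.2 := by
    have h3 : ContinuousAt (fun r : ℂ × ℂ => r.1 - r.2) (q₁, q₂) := by fun_prop
    filter_upwards [h3.eventually (isOpen_ne.mem_nhds (sub_ne_zero.2 h0))] with r hr
    exact sub_ne_zero.1 hr
  have e2 : ∀ᶠ r : ℂ × ℂ in 𝓝 (q₁, q₂), ‖r.2 - r.1‖ < 2 := by
    have h3 : ContinuousAt (fun r : ℂ × ℂ => ‖r.2 - r.1‖) (q₁, q₂) := by fun_prop
    exact h3.eventually (Iio_mem_nhds hlt)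
  have e3 : ∀ᶠ r : ℂ × ℂ in 𝓝 (q₁, q₂), apex σ r.1 r.2 ≠ z₁ ∧ apex σ r.1 r.2 ≠ z₂ :=
    (hT.eventually (isOpen_ne.mem_nhds a₁)).and (hT.eventually (isOpen_ne.mem_nhds a₂))
  have e4 : ∀ᶠ r : ℂ × ℂ in 𝓝 (q₁, q₂), apex σ r.1 r.2 + z₁ ≠ 2 * r.1 := by
    have h3 : ContinuousAt (fun r : ℂ × ℂ => apex σ r.1 r.2 + z₁ - 2 * r.1) (q₁, q₂) :=
      (hc.add continuousAt_const).sub (by fun_prop)
    have h4 : (apex σ q₁ q₂ + z₁ - 2 * q₁ : ℂ) ≠ 0 := by rw [hap]; exact sub_ne_zero.2 b₁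
    filter_upwards [h3.eventually (isOpen_ne.mem_nhds h4)] with r hr
    exact sub_ne_zero.1 hr
  have e5 : ∀ᶠ r : ℂ × ℂ in 𝓝 (q₁, q₂), apex σ r.1 r.2 + z₂ ≠ 2 * r.2 := by
    have h3 : ContinuousAt (fun r : ℂ × ℂ => apex σ r.1 r.2 + z₂ - 2 * r.2) (q₁, q₂) :=
      (hc.add continuousAt_const).sub (by fun_prop)
    have h4 : (apex σ q₁ q₂ + z₂ - 2 * q₂ : ℂ) ≠ 0 := by rw [hap]; exact sub_ne_zero.2 b₂
    filter_upwards [h3.eventually (isOpen_ne.mem_nhds h4)] with r hr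
    exact sub_ne_zero.1 hr
  have hfr : ∃ᶠ r : ℂ × ℂ in 𝓝 (q₁, q₂), r.1 ∈ Cr U z₁ P₁ ∧ r.2 ∈ Cr U z₂ P₂ := by
    have h3 : (q₁, q₂) ∈ closure (Cr U z₁ P₁ ×ˢ Cr U z₂ P₂) := by
      rw [closure_prod_eq]; exact ⟨c₁, c₂⟩
    exact mem_closure_iff_frequently.1 h3
  refine hT.frequently ((hfr.and_eventually (e1.and (e2.and (e3.and (e4.and e5))))).mono ?_)
  rintro ⟨x, y⟩ ⟨⟨hx, hy⟩, g1, g2, ⟨g3, g4⟩, g5, g6⟩ t ht
  obtain ⟨d1, d2⟩ := apex_dist hσ g1 g2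
  rcases ht with ht | ht
  · exact Cr_line h hx ht (by rw [dist_comm]; exact d1) g3 g5
  · exact Cr_line h hy ht (by rw [dist_comm]; exact d2) g4 g6

/-- **Two arc rule.** -/
theorem two_arc (h : Irr U T) {p q₁ q₂ z₁ z₂ : ℂ} {P₁ P₂ : Set (Fin k)}
    (hq₁ : dist q₁ p = 1) (hq₂ : dist q₂ p = 1) (h0 : q₁ ≠ q₂) (h2 : q₁ + q₂ ≠ 2 * p)
    (c₁ : q₁ ∈ closure (Cr U z₁ P₁)) (c₂ : q₂ ∈ closure (Cr U z₂ P₂))
    (a₁ : p ≠ z₁) (b₁ : p + z₁ ≠ 2 * q₁) (a₂ : p ≠ z₂) (b₂ : p + z₂ ≠ 2 * q₂) :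
    ¬ T p ⊆ P₁ ∪ P₂ := by
  intro hsub
  obtain ⟨w, hw, hT⟩ := ((two_arc_freq h.mx hq₁ hq₂ h0 h2 c₁ c₂ a₁ b₁ a₂ b₂).and_eventually
    (h.nhd p)).exists
  obtain ⟨i, hi⟩ := h.ne w
  exact hw i (hsub (hT hi)) (h.sub w hi)

/-- a point of the circle near an arc of the circle -/
theorem Cr_nhds {z a : ℂ} {P : Set (Fin k)} (ha : a ∈ Cr U z P) :
    ∀ᶠ b in 𝓝 a, dist b z = 1 → b ∈ Cr U z P := by
  have h1 := eventually_nhdsWithin_iff.1 (eventually_eventually_nhdsWithin.2 ha.2)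
  filter_upwards [h1] with b hb hbz
  exact ⟨hbz, hb hbz⟩

/-- an arc near a point of the circle, off a given point -/
theorem Cr_ne {z q : ℂ} {P : Set (Fin k)} (hq : q ∈ closure (Cr U z P)) (y : ℂ) :
    q ∈ closure (Cr U z P \ {y}) := by
  rw [mem_closure_iff_nhds] at hq ⊢
  intro N hN
  obtain ⟨N', hN'N, hN'o, hqN'⟩ := _root_.mem_nhds_iff.1 hN
  obtain ⟨a, haN, ha⟩ := hq N' (hN'o.mem_nhds hqN')
  have hs : N' ∩ {b | P ⊆ Pal U b} ∈ 𝓝[sphere z 1] a :=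
    inter_mem (mem_nhdsWithin_of_mem_nhds (hN'o.mem_nhds haN)) ha.2
  obtain ⟨b, hb, hbz, hby, -, hbs⟩ := exists_generic (y := y) ha.1 hs
  exact ⟨b, hN'N hb.1, ⟨hbz, by filter_upwards [hbs] with c hc using hc.2⟩, hby⟩

theorem apex_neg (σ : ℝ) (x y : ℂ) : apex σ x y + apex (-σ) x y = x + y := by
  unfold apex; push_cast; ring

/-- two circles have only one common point near a transversal common point -/
theorem near_apex {p z q : ℂ} (hp : dist q p = 1) (hz : dist q z = 1) (h0 : p ≠ z)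
    (h2 : p + z ≠ 2 * q) : ∀ᶠ y in 𝓝 q, dist y p = 1 → dist y z = 1 → y = q := by
  obtain ⟨σ, hσ, hap⟩ := exists_apex (by rw [dist_comm]; exact hp) (by rw [dist_comm]; exact hz)
    h0 h2
  have e1 : ∀ᶠ y in 𝓝 q, p + z - 2 * y ≠ 0 := by
    have h3 : ContinuousAt (fun y : ℂ => p + z - 2 * y) q := by fun_prop
    exact h3.eventually (isOpen_ne.mem_nhds (sub_ne_zero.2 h2))
  have e2 : ∀ᶠ y in 𝓝 q, p + z - q - y ≠ 0 := by
    have h3 : ContinuousAt (fun y : ℂ => p + z - q - y) q := by fun_prop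
    refine h3.eventually (isOpen_ne.mem_nhds ?_)
    intro h4; exact h2 (by linear_combination h4)
  filter_upwards [e1, e2] with y h3 h4 h5 h6
  obtain ⟨σ', hσ', hap'⟩ := exists_apex (by rw [dist_comm]; exact h5)
    (by rw [dist_comm]; exact h6) h0 (sub_ne_zero.1 h3)
  by_cases hs : σ' = σ
  · rw [← hap', hs, hap]
  · have hs' : σ' = -σ := by
      rcases hσ with rfl | rfl <;> rcases hσ' with rfl | rfl <;> first | exact absurd rfl hs | norm_num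
    exfalso
    apply h4
    have := apex_neg σ p z
    rw [← hs', hap, hap'] at this
    linear_combination -this

/-- **Two arc rule**, arcs of `S(p)` itself in step and one transversal arc. -/
theorem own_arc_freq (h : Mx U) {p q₁ q₂ z₂ : ℂ} {P₁ Q₁ P₂ : Set (Fin k)}
    (hq₂ : dist q₂ p = 1) (h0 : q₁ ≠ q₂) (h2 : q₁ + q₂ ≠ 2 * p)
    (c₁ : q₁ ∈ closure {x | x ∈ Cr U p P₁ ∧ 2 * p - x ∈ Cr U p Q₁})
    (c₂ : q₂ ∈ closure (Cr U z₂ P₂)) (d₂ : dist q₂ z₂ = 1) (a₂ : p ≠ z₂)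
    (b₂ : p + z₂ ≠ 2 * q₂) :
    ∃ᶠ w in 𝓝 p, ∀ t, t ∈ P₁ ∨ t ∈ Q₁ ∨ t ∈ P₂ → t ∉ Pal U w := by
  rw [frequently_iff]
  intro N hN
  -- the point `x`
  have f1 : ∀ᶠ x in 𝓝 q₁, x - q₂ ≠ 0 := by
    have h3 : ContinuousAt (fun x : ℂ => x - q₂) q₁ := by fun_prop
    exact h3.eventually (isOpen_ne.mem_nhds (sub_ne_zero.2 h0))
  have f2 : ∀ᶠ x in 𝓝 q₁, x + q₂ - 2 * p ≠ 0 := by
    have h3 : ContinuousAt (fun x : ℂ => x + q₂ - 2 * p) q₁ := by fun_prop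
    exact h3.eventually (isOpen_ne.mem_nhds (sub_ne_zero.2 h2))
  obtain ⟨x, ⟨hxP, hxQ⟩, hx2, hx3⟩ :=
    ((mem_closure_iff_frequently.1 c₁).and_eventually (f1.and f2)).exists
  have hx2 : x ≠ q₂ := sub_ne_zero.1 hx2
  have hx3 : x + q₂ ≠ 2 * p := sub_ne_zero.1 hx3
  have hxp : dist x p = 1 := hxP.1
  obtain ⟨σ, hσ, hap⟩ := exists_apex hxp hq₂ hx2 hx3
  have hlt := norm_lt_two hxp hq₂ hx3
  have hc : ContinuousAt (fun y : ℂ => apex σ x y) q₂ :=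
    ContinuousAt.comp (f := fun y : ℂ => (x, y)) (g := fun r : ℂ × ℂ => apex σ r.1 r.2)
      (apex_cont (σ := σ) hx2) (by fun_prop)
  have hT : Tendsto (fun y : ℂ => apex σ x y) (𝓝 q₂) (𝓝 p) := by
    have := hc.tendsto
    simpa only [hap] using this
  have e0 : ∀ᶠ y in 𝓝 q₂, x - y ≠ 0 := by
    have h3 : ContinuousAt (fun y : ℂ => x - y) q₂ := by fun_prop
    exact h3.eventually (isOpen_ne.mem_nhds (sub_ne_zero.2 hx2))
  have e1 : ∀ᶠ y in 𝓝 q₂, ‖y - x‖ < 2 := by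
    have h3 : ContinuousAt (fun y : ℂ => ‖y - x‖) q₂ := by fun_prop
    exact h3.eventually (Iio_mem_nhds hlt)
  have e2 : ∀ᶠ y in 𝓝 q₂, apex σ x y ≠ z₂ := hT.eventually (isOpen_ne.mem_nhds a₂)
  have e3 : ∀ᶠ y in 𝓝 q₂, apex σ x y + z₂ - 2 * y ≠ 0 := by
    have h3 : ContinuousAt (fun y : ℂ => apex σ x y + z₂ - 2 * y) q₂ :=
      (hc.add continuousAt_const).sub (by fun_prop)
    have h4 : apex σ x q₂ + z₂ - 2 * q₂ ≠ 0 := by rw [hap]; exact sub_ne_zero.2 b₂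
    exact h3.eventually (isOpen_ne.mem_nhds h4)
  have e4 : ∀ᶠ y in 𝓝 q₂, apex σ x y + p - 2 * x ≠ 0 := by
    have h3 : ContinuousAt (fun y : ℂ => apex σ x y + p - 2 * x) q₂ :=
      (hc.add continuousAt_const).sub (by fun_prop)
    have h4 : apex σ x q₂ + p - 2 * x ≠ 0 := by
      rw [hap]
      intro h4
      have h5 : x = p := by linear_combination -h4 / 2
      rw [h5, dist_self] at hxp
      exact zero_ne_one hxp
    exact h3.eventually (isOpen_ne.mem_nhds h4)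
  have e5 : ∀ᶠ y in 𝓝 q₂, dist (apex σ x y + p - x) p = 1 →
      apex σ x y + p - x ∈ Cr U p Q₁ := by
    have h3 : Tendsto (fun y : ℂ => apex σ x y + p - x) (𝓝 q₂) (𝓝 (2 * p - x)) := by
      have h4 := (hT.add_const p).sub_const x
      have h5 : p + p - x = 2 * p - x := by ring
      rwa [h5] at h4
    exact h3.eventually (Cr_nhds hxQ)
  have e6 := near_apex hq₂ d₂ a₂ b₂
  obtain ⟨y, ⟨hy, hyq⟩, g0, g1, g2, g3, g4, g5, g6, g7⟩ :=
    ((mem_closure_iff_frequently.1 (Cr_ne c₂ q₂)).and_eventually (e0.and (e1.and (e2.and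
      (e3.and (e4.and (e5.and (e6.and (hT.eventually hN))))))))).exists
  have g0 : x ≠ y := sub_ne_zero.1 g0
  obtain ⟨d1, d3⟩ := apex_dist hσ g0 g1
  obtain ⟨w, hw⟩ : ∃ w, w = apex σ x y := ⟨_, rfl⟩
  rw [← hw] at g2 g3 g4 g5 g7 d1 d3
  have hwp : w ≠ p := by
    intro h4
    rw [h4] at d3
    exact hyq (g6 (by rw [dist_comm]; exact d3) hy.1)
  have g3 : w + z₂ ≠ 2 * y := sub_ne_zero.1 g3
  have g4 : w + p ≠ 2 * x := sub_ne_zero.1 g4
  have hx' : w + p - x ∈ Cr U p Q₁ := by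
    refine g5 ?_
    rw [dist_eq_norm] at d1 ⊢
    rw [← d1]; congr 1; ring
  refine ⟨w, g7, ?_⟩
  intro t ht
  rcases ht with ht | ht | ht
  · exact Cr_line h hxP ht (by rw [dist_comm]; exact d1) hwp g4
  · refine Cr_line h hx' ht ?_ hwp ?_
    · rw [dist_eq_norm, ← norm_neg]
      rw [dist_eq_norm] at hxp
      rw [← hxp]; congr 1; ring
    · intro h4; exact g4 (by linear_combination -h4)
  · exact Cr_line h hy ht (by rw [dist_comm]; exact d3) g2 g3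

/-- **Two arc rule**, antipodal arcs of `S(p)` itself, not in step. -/
theorem anti_arc_freq (h : Mx U) {p q₁ : ℂ} {P₁ Q₂ : Set (Fin k)}
    (c₁ : q₁ ∈ closure (Cr U p P₁)) (c₂ : 2 * p - q₁ ∈ closure (Cr U p Q₂)) :
    ∃ᶠ w in 𝓝 p, ∀ t, t ∈ P₁ ∨ t ∈ Q₂ → t ∉ Pal U w := by
  have hq₁ : dist q₁ p = 1 := by
    have h1 : closure (Cr U p P₁) ⊆ sphere p 1 := closure_minimal (fun q hq => hq.1) isClosed_sphere
    exact h1 c₁
  rw [frequently_iff]
  intro N hN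
  obtain ⟨N', hN'N, hN'o, hpN'⟩ := _root_.mem_nhds_iff.1 hN
  have hfr : ∃ᶠ r : ℂ × ℂ in 𝓝 (q₁, 2 * p - q₁), r.1 ∈ Cr U p P₁ ∧ r.2 ∈ Cr U p Q₂ := by
    have h3 : (q₁, 2 * p - q₁) ∈ closure (Cr U p P₁ ×ˢ Cr U p Q₂) := by
      rw [closure_prod_eq]; exact ⟨c₁, c₂⟩
    exact mem_closure_iff_frequently.1 h3
  have e1 : ∀ᶠ r : ℂ × ℂ in 𝓝 (q₁, 2 * p - q₁), r.1 + r.2 - p ∈ N' := by
    have h3 : ContinuousAt (fun r : ℂ × ℂ => r.1 + r.2 - p) (q₁, 2 * p - q₁) := by fun_prop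
    refine h3.eventually (hN'o.mem_nhds ?_)
    have h4 : q₁ + (2 * p - q₁) - p = p := by ring
    show q₁ + (2 * p - q₁) - p ∈ N'
    rw [h4]; exact hpN'
  have e2 : ∀ᶠ r : ℂ × ℂ in 𝓝 (q₁, 2 * p - q₁), r.1 - r.2 ≠ 0 := by
    have h3 : ContinuousAt (fun r : ℂ × ℂ => r.1 - r.2) (q₁, 2 * p - q₁) := by fun_prop
    refine h3.eventually (isOpen_ne.mem_nhds ?_)
    intro h4
    have h4 : q₁ - (2 * p - q₁) = 0 := h4
    have h5 : q₁ = p := by linear_combination h4 / 2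
    rw [h5, dist_self] at hq₁
    exact zero_ne_one hq₁
  obtain ⟨⟨x, x'⟩, ⟨hx, hx'⟩, h3, h4⟩ := (hfr.and_eventually (e1.and e2)).exists
  have hx : x ∈ Cr U p P₁ := hx
  have hx' : x' ∈ Cr U p Q₂ := hx'
  have h3 : x + x' - p ∈ N' := h3
  have h4 : x - x' ≠ 0 := h4
  have hs : {b | P₁ ⊆ Pal U b} ∩ ({b | b + x' - p ∈ N'} ∩ {b | b - x' ≠ 0}) ∈
      𝓝[sphere p 1] x := by
    refine inter_mem hx.2 (mem_nhdsWithin_of_mem_nhds (inter_mem ?_ ?_))
    · have h5 : ContinuousAt (fun b : ℂ => b + x' - p) x := by fun_prop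
      exact h5 (hN'o.mem_nhds h3)
    · have h5 : ContinuousAt (fun b : ℂ => b - x') x := by fun_prop
      exact h5.eventually (isOpen_ne.mem_nhds h4)
  obtain ⟨b, ⟨-, hb2, hb3⟩, hbp, hbne, -, hbs⟩ := exists_generic (y := 2 * p - x') hx.1 hs
  have hb2 : b + x' - p ∈ N' := hb2
  have hb3 : b ≠ x' := sub_ne_zero.1 hb3
  have hbC : b ∈ Cr U p P₁ := ⟨hbp, by filter_upwards [hbs] with c hc using hc.1⟩
  have hx'p : dist x' p = 1 := hx'.1
  refine ⟨b + x' - p, hN'N hb2, ?_⟩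
  intro t ht
  rcases ht with ht | ht
  · refine Cr_line h hbC ht ?_ ?_ ?_
    · rw [dist_eq_norm, ← norm_neg]
      rw [dist_eq_norm] at hx'p
      rw [← hx'p]; congr 1; ring
    · intro h5; exact hbne (by linear_combination h5)
    · intro h5; exact hb3 (by linear_combination -h5)
  · refine Cr_line h hx' ht ?_ ?_ ?_
    · rw [dist_eq_norm, ← norm_neg]
      rw [dist_eq_norm] at hbp
      rw [← hbp]; congr 1; ring
    · intro h5; exact hbne (by linear_combination h5)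
    · intro h5; exact hb3 (by linear_combination h5)

/-- **Two arc rule**, arcs of `S(p)` itself in step and one transversal arc, palette form. -/
theorem own_arc (h : Irr U T) {p q₁ q₂ z₂ : ℂ} {P₁ Q₁ P₂ : Set (Fin k)}
    (hq₂ : dist q₂ p = 1) (h0 : q₁ ≠ q₂) (h2 : q₁ + q₂ ≠ 2 * p)
    (c₁ : q₁ ∈ closure {x | x ∈ Cr U p P₁ ∧ 2 * p - x ∈ Cr U p Q₁})
    (c₂ : q₂ ∈ closure (Cr U z₂ P₂)) (d₂ : dist q₂ z₂ = 1) (a₂ : p ≠ z₂)
    (b₂ : p + z₂ ≠ 2 * q₂) : ¬ T p ⊆ P₁ ∪ (Q₁ ∪ P₂) := by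
  intro hsub
  obtain ⟨w, hw, hT⟩ := ((own_arc_freq h.mx hq₂ h0 h2 c₁ c₂ d₂ a₂ b₂).and_eventually
    (h.nhd p)).exists
  obtain ⟨i, hi⟩ := h.ne w
  exact hw i (hsub (hT hi)) (h.sub w hi)

/-- **Two arc rule**, antipodal arcs of `S(p)` itself, palette form. -/
theorem anti_arc (h : Irr U T) {p q₁ : ℂ} {P₁ Q₂ : Set (Fin k)}
    (c₁ : q₁ ∈ closure (Cr U p P₁)) (c₂ : 2 * p - q₁ ∈ closure (Cr U p Q₂)) :
    ¬ T p ⊆ P₁ ∪ Q₂ := by
  intro hsub
  obtain ⟨w, hw, hT⟩ := ((anti_arc_freq h.mx c₁ c₂).and_eventually (h.nhd p)).exists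
  obtain ⟨i, hi⟩ := h.ne w
  exact hw i (hsub (hT hi)) (h.sub w hi)

end Vale.Agent.P032.H259
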