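import Vale.Agent.P032.H429.Fill
import Vale.Agent.P032.H158.XC

/-!
# P032: the wedge lemma

`Irr.wedge259` : two solid rays of different colours `c`, `d` at `z`; all colours near `z` in the
closed wedge between them are `c` or `d`; then a ray `m` of the wedge is solid for `c` or for `d`,
unless `c` or `d` is possible at one of the points `z + i m`, `z - i m`.
-/

open Set Filter Topology Metric

noncomputable section

namespace Vale.Agent.P032.Six

/-! ### two circles -/

/-- the common points of the unit circles about `A` and `B` -/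
def cp259 (τ : ℝ) (A B : ℂ) : ℂ :=
  (A + B) / 2 + ((τ * (Real.sqrt (1 - ‖B - A‖ ^ 2 / 4) / ‖B - A‖) : ℝ) : ℂ) * (Complex.I * (B - A))

theorem sq_norm259 (a : ℂ) : ‖a‖ ^ 2 = a.re ^ 2 + a.im ^ 2 := by
  rw [Complex.sq_norm, Complex.normSq_apply]; ring

theorem cp_dist259 {τ : ℝ} {A B : ℂ} (hτ : τ = 1 ∨ τ = -1) (hAB : A ≠ B)
    (h : 0 ≤ 1 - ‖B - A‖ ^ 2 / 4) : dist (cp259 τ A B) A = 1 ∧ dist (cp259 τ A B) B = 1 := by
  have hn : ‖B - A‖ ≠ 0 := by
    rw [norm_ne_zero_iff, sub_ne_zero]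
    exact hAB.symm
  obtain ⟨t, ht⟩ : ∃ t, t = τ * (Real.sqrt (1 - ‖B - A‖ ^ 2 / 4) / ‖B - A‖) := ⟨_, rfl⟩
  have hτ2 : τ ^ 2 = 1 := by rcases hτ with rfl | rfl <;> norm_num
  have ht2 : t ^ 2 * ‖B - A‖ ^ 2 = 1 - ‖B - A‖ ^ 2 / 4 := by
    rw [ht, mul_pow, div_pow, Real.sq_sqrt h, hτ2]
    field_simp
  rw [sq_norm259] at ht2
  simp only [Complex.sub_re, Complex.sub_im] at ht2
  constructor
  · rw [dist_eq_one_iff]
    unfold cp259
    rw [← ht]
    simp only [Complex.add_re, Complex.add_im, Complex.mul_re, Complex.mul_im, Complex.ofReal_re,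
      Complex.ofReal_im, Complex.I_re, Complex.I_im, Complex.sub_re, Complex.sub_im,
      Complex.div_ofNat_re, Complex.div_ofNat_im]
    linear_combination ht2
  · rw [dist_eq_one_iff]
    unfold cp259
    rw [← ht]
    simp only [Complex.add_re, Complex.add_im, Complex.mul_re, Complex.mul_im, Complex.ofReal_re,
      Complex.ofReal_im, Complex.I_re, Complex.I_im, Complex.sub_re, Complex.sub_im,
      Complex.div_ofNat_re, Complex.div_ofNat_im]
    linear_combination ht2

/-- transversal unit circles through `z` -/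
theorem exists_cp259 {z y y' : ℂ} (hy : dist y z = 1) (hy' : dist y' z = 1)
    (hc : cr (y - z) (y' - z) ≠ 0) :
    ∃ τ : ℝ, (τ = 1 ∨ τ = -1) ∧ y ≠ y' ∧ 0 < 1 - ‖y' - y‖ ^ 2 / 4 ∧ cp259 τ y y' = z := by
  have hne : y ≠ y' := by
    rintro rfl
    apply hc
    unfold cr
    ring
  have hn : 0 < ‖y' - y‖ := by
    rw [norm_pos_iff, sub_ne_zero]
    exact hne.symm
  have h1 := (dist_eq_one_iff y z).1 hy
  have h2 := (dist_eq_one_iff y' z).1 hy'
  obtain ⟨N, hN⟩ : ∃ N, N = ‖y' - y‖ ^ 2 := ⟨_, rfl⟩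
  have hN0 : 0 < N := by rw [hN]; positivity
  have hNe : N = (y'.re - y.re) ^ 2 + (y'.im - y.im) ^ 2 := by
    rw [hN, sq_norm259]; simp
  -- `z - (y + y') / 2 = t * I * (y' - y)`
  obtain ⟨w, hw⟩ : ∃ w, w = cr (y - z) (y' - z) := ⟨_, rfl⟩
  rw [← hw] at hc
  have hwe : w = (y.re - z.re) * (y'.im - z.im) - (y.im - z.im) * (y'.re - z.re) := by
    rw [hw]; unfold cr; simp
  -- the key identity
  have hkey : w ^ 2 = N * (1 - N / 4) := by
    rw [hwe, hNe]
    have e1 : (y'.re - y.re) = (y'.re - z.re) - (y.re - z.re) := by ring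
    have e2 : (y'.im - y.im) = (y'.im - z.im) - (y.im - z.im) := by ring
    rw [e1, e2]
    generalize y.re - z.re = a at *
    generalize y.im - z.im = b at *
    generalize y'.re - z.re = c at *
    generalize y'.im - z.im = d at *
    have h3 : a ^ 2 + b ^ 2 = 1 := by linarith
    have h4 : c ^ 2 + d ^ 2 = 1 := by linarith
    have h5 : (c - a) ^ 2 + (d - b) ^ 2 = 2 - 2 * (a * c + b * d) := by
      linear_combination h3 + h4
    rw [h5]
    have h6 : (a * d - b * c) ^ 2 + (a * c + b * d) ^ 2 = 1 := by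
      have : (a * d - b * c) ^ 2 + (a * c + b * d) ^ 2 = (a ^ 2 + b ^ 2) * (c ^ 2 + d ^ 2) := by
        ring
      rw [this, h3, h4]; norm_num
    linear_combination h6
  have hpos : 0 < 1 - N / 4 := by
    have h3 : 0 < w ^ 2 := by positivity
    rw [hkey] at h3
    exact pos_of_mul_pos_right h3 hN0.le
  have hsq : Real.sqrt (1 - N / 4) / ‖y' - y‖ = |w| / N := by
    have e1 : N * (1 - N / 4) = (‖y' - y‖ * Real.sqrt (1 - N / 4)) ^ 2 := by
      rw [mul_pow, Real.sq_sqrt hpos.le, ← hN]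
    have e2 : |w| = ‖y' - y‖ * Real.sqrt (1 - N / 4) := by
      rw [← Real.sqrt_sq_eq_abs, hkey, e1, Real.sqrt_sq (by positivity)]
    rw [e2, hN]
    field_simp
  obtain ⟨τ, hτ, hτw⟩ : ∃ τ : ℝ, (τ = 1 ∨ τ = -1) ∧ τ * |w| = w := by
    rcases lt_or_gt_of_ne hc with h3 | h3
    · exact ⟨-1, Or.inr rfl, by rw [abs_of_neg h3]; ring⟩
    · exact ⟨1, Or.inl rfl, by rw [abs_of_pos h3]; ring⟩
  refine ⟨τ, hτ, hne, by rw [← hN]; exact hpos, ?_⟩
  unfold cp259
  rw [← hN, hsq]
  have e3 : τ * (|w| / N) = w / N := by rw [← mul_div_assoc, hτw]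
  rw [e3]
  have h1' : (y.re - z.re) ^ 2 + (y.im - z.im) ^ 2 = 1 := by linarith
  have h2' : (y'.re - z.re) ^ 2 + (y'.im - z.im) ^ 2 = 1 := by linarith
  apply Complex.ext
  · simp only [Complex.add_re, Complex.mul_re, Complex.mul_im, Complex.ofReal_re,
      Complex.ofReal_im, Complex.I_re, Complex.I_im, Complex.sub_re, Complex.sub_im,
      Complex.div_ofNat_re]
    have : (y.re + y'.re) / 2 - z.re = w / N * (y'.im - y.im) := by
      rw [div_mul_eq_mul_div, eq_div_iff hN0.ne', hwe, hNe]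
      linear_combination (((y.re + y'.re) / 2 - z.re) - (y'.re - z.re)) * h1' +
        (((y.re + y'.re) / 2 - z.re) - (y.re - z.re)) * h2'
    linarith
  · simp only [Complex.add_im, Complex.mul_re, Complex.mul_im, Complex.ofReal_re,
      Complex.ofReal_im, Complex.I_re, Complex.I_im, Complex.sub_re, Complex.sub_im,
      Complex.div_ofNat_im]
    have : (y.im + y'.im) / 2 - z.im = -(w / N * (y'.re - y.re)) := by
      rw [div_mul_eq_mul_div, ← neg_div, eq_div_iff hN0.ne', hwe, hNe]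
      linear_combination (((y.im + y'.im) / 2 - z.im) - (y'.im - z.im)) * h1' +
        (((y.im + y'.im) / 2 - z.im) - (y.im - z.im)) * h2'
    linarith

/-- the transversal common points of circles about converging centres -/
theorem tendsto_cp259 {z y y' : ℂ} {v v' : ℕ → ℂ} (hy : dist y z = 1) (hy' : dist y' z = 1)
    (hc : cr (y - z) (y' - z) ≠ 0) (hv : Tendsto v atTop (𝓝 y)) (hv' : Tendsto v' atTop (𝓝 y')) :
    ∃ x : ℕ → ℂ, Tendsto x atTop (𝓝 z) ∧ ∀ᶠ n in atTop, dist (x n) (v n) = 1 ∧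
      dist (x n) (v' n) = 1 := by
  obtain ⟨τ, hτ, hne, hpos, hz⟩ := exists_cp259 hy hy' hc
  refine ⟨fun n => cp259 τ (v n) (v' n), ?_, ?_⟩
  · rw [← hz]
    have hn : ‖y' - y‖ ≠ 0 := by
      rw [norm_ne_zero_iff, sub_ne_zero]
      exact hne.symm
    unfold cp259
    have h1 : Tendsto (fun n => ‖v' n - v n‖) atTop (𝓝 ‖y' - y‖) := (hv'.sub hv).norm
    have h2 : Tendsto (fun n => τ * (Real.sqrt (1 - ‖v' n - v n‖ ^ 2 / 4) / ‖v' n - v n‖)) atTop
        (𝓝 (τ * (Real.sqrt (1 - ‖y' - y‖ ^ 2 / 4) / ‖y' - y‖))) :=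
      ((Real.continuous_sqrt.continuousAt.tendsto.comp
        (tendsto_const_nhds.sub ((h1.pow 2).div_const 4))).div h1 hn).const_mul τ
    exact ((hv.add hv').div_const 2).add
      (((Complex.continuous_ofReal.tendsto _).comp h2).mul ((hv'.sub hv).const_mul Complex.I))
  · have h1 : ∀ᶠ n in atTop, v n ≠ v' n := by
      have h2 : Tendsto (fun n => v n - v' n) atTop (𝓝 (y - y')) := hv.sub hv'
      filter_upwards [h2.eventually (isOpen_ne.mem_nhds (sub_ne_zero.2 hne))] with n hn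
      exact sub_ne_zero.1 hn
    have h2 : ∀ᶠ n in atTop, 0 < 1 - ‖v' n - v n‖ ^ 2 / 4 := by
      have h3 : Tendsto (fun n => 1 - ‖v' n - v n‖ ^ 2 / 4) atTop (𝓝 (1 - ‖y' - y‖ ^ 2 / 4)) :=
        tendsto_const_nhds.sub (((hv'.sub hv).norm.pow 2).div_const 4)
      exact h3.eventually (Ioi_mem_nhds hpos)
    filter_upwards [h1, h2] with n h3 h4
    exact cp_dist259 hτ h3 h4.le

theorem tendsto_ip259 {u v : ℕ → ℂ} {a b : ℂ} (hu : Tendsto u atTop (𝓝 a))
    (hv : Tendsto v atTop (𝓝 b)) : Tendsto (fun n => ip (u n) (v n)) atTop (𝓝 (ip a b)) := by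
  unfold ip
  exact (((Complex.continuous_re.tendsto _).comp hu).mul
    ((Complex.continuous_re.tendsto _).comp hv)).add
    (((Complex.continuous_im.tendsto _).comp hu).mul ((Complex.continuous_im.tendsto _).comp hv))

/-- a circle through `x`, seen from `z` -/
theorem circle_ip259 {x v z : ℂ} (h : dist x v = 1) :
    2 * ip (x - z) (v - z) = ‖x - z‖ ^ 2 + (dist v z ^ 2 - 1) := by
  have h1 := (dist_eq_one_iff x v).1 h
  rw [sq_norm259, sq_dist]
  unfold ip
  simp only [Complex.sub_re, Complex.sub_im]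
  linear_combination -h1

/-! ### partners of the points of a ray -/

variable {k : ℕ} {U : Fin k → Set ℂ} {T : ℂ → Set (Fin k)}

/-- partners of the points of a ray which is not solid -/
theorem Irr.seq259 (h : Irr U T) {z m : ℂ} {i : Fin k} (hn : ¬ Ray (U i) z m) :
    ∃ (r : ℕ → ℝ) (v : ℕ → ℂ) (y : ℂ), (∀ n, 0 < r n) ∧ Tendsto r atTop (𝓝 0) ∧
      (∀ n, dist (z + r n * m) (v n) = 1) ∧ (∀ n, i ∈ Pal U (v n)) ∧ Tendsto v atTop (𝓝 y) := by
  have h1 : ∃ᶠ r : ℝ in 𝓝[>] 0, z + r * m ∉ U i := by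
    unfold Ray at hn
    rwa [Filter.not_eventually] at hn
  obtain ⟨r, hr, hrU⟩ := Filter.exists_seq_forall_of_frequently h1
  have hr0 : ∀ᶠ n in atTop, 0 < r n := hr.eventually self_mem_nhdsWithin
  have hr' : Tendsto r atTop (𝓝 0) := hr.mono_right nhdsWithin_le_nhds
  choose v hv hvi using fun n => h.partner (hrU n)
  have hb : ∀ᶠ n in atTop, v n ∈ closedBall z 2 := by
    have h2 : Tendsto (fun n => z + (r n : ℂ) * m) atTop (𝓝 (z + (0 : ℂ) * m)) :=
      (((Complex.continuous_ofReal.tendsto 0).comp hr').mul_const m).const_add z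
    rw [zero_mul, add_zero] at h2
    filter_upwards [h2.eventually (ball_mem_nhds z one_pos)] with n hn
    have hn : dist (z + (r n : ℂ) * m) z < 1 := hn
    rw [mem_closedBall]
    have h3 := dist_triangle (v n) (z + (r n : ℂ) * m) z
    rw [dist_comm (v n) (z + (r n : ℂ) * m), hv n] at h3
    linarith
  obtain ⟨y, -, φ, hφ, hφy⟩ := (isCompact_closedBall z (2 : ℝ)).tendsto_subseq' hb.frequently
  obtain ⟨N, hN⟩ := Filter.eventually_atTop.1 hr0
  refine ⟨fun n => r (φ (n + N)), fun n => v (φ (n + N)), y, fun n => hN _ ?_, ?_, fun n => hv _,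
    fun n => hvi _, ?_⟩
  · exact (Nat.le_add_left N n).trans (hφ.id_le _)
  · exact (hr'.comp hφ.tendsto_atTop).comp (tendsto_add_atTop_nat N)
  · exact hφy.comp (tendsto_add_atTop_nat N)

theorem Pal_limit259 {i : Fin k} {v : ℕ → ℂ} {y : ℂ} (hv : ∀ n, i ∈ Pal U (v n))
    (hy : Tendsto v atTop (𝓝 y)) : i ∈ Pal U y :=
  isClosed_closure.mem_of_tendsto hy (Eventually.of_forall hv)

/-- the partners are on one side of the circle, and the solid rays of the colour are on the other
side of the tangent -/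
theorem Irr.seq_side259 (h : Irr U T) {z m a y : ℂ} {i : Fin k} {r : ℕ → ℝ} {v : ℕ → ℂ}
    (hm : ‖m‖ = 1) (ha : Ray (U i) z a) (hr0 : ∀ n, 0 < r n) (hr : Tendsto r atTop (𝓝 0))
    (hv : ∀ n, dist (z + r n * m) (v n) = 1) (hvi : ∀ n, i ∈ Pal U (v n))
    (hy : Tendsto v atTop (𝓝 y)) (h1 : i ∉ Pal U (z + Complex.I * m))
    (h2 : i ∉ Pal U (z - Complex.I * m)) :
    dist y z = 1 ∧ ip m (y - z) ≠ 0 ∧ ip m (y - z) * ip a (y - z) ≤ 0 ∧
      ∀ᶠ n in atTop, 0 < ip m (y - z) * (dist (v n) z ^ 2 - 1) := by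
  have hiy := Pal_limit259 hvi hy
  have hx : Tendsto (fun n => z + (r n : ℂ) * m) atTop (𝓝 z) := by
    have h3 : Tendsto (fun n => z + (r n : ℂ) * m) atTop (𝓝 (z + (0 : ℂ) * m)) :=
      (((Complex.continuous_ofReal.tendsto 0).comp hr).mul_const m).const_add z
    rwa [zero_mul, add_zero] at h3
  have hyz : dist y z = 1 := by
    have h3 := (hx.dist hy)
    have h4 : Tendsto (fun n => dist (z + (r n : ℂ) * m) (v n)) atTop (𝓝 1) := by
      simp only [hv]; exact tendsto_const_nhds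
    rw [dist_comm]
    exact tendsto_nhds_unique h3 h4
  have hmy : ip m (y - z) ≠ 0 := by
    intro h0
    have hY := (dist_eq_one_iff y z).1 hyz
    have hm2 := ip_sq hm
    have e0 : m.re * (y.re - z.re) + m.im * (y.im - z.im) = 0 := by
      unfold ip at h0; simpa using h0
    obtain ⟨t, ht⟩ : ∃ t : ℝ, t = m.re * (y.im - z.im) - m.im * (y.re - z.re) := ⟨_, rfl⟩
    have hyt : y - z = t * (Complex.I * m) := by
      apply Complex.ext
      · simp
        rw [ht]
        linear_combination (-(y.re - z.re)) * hm2 + m.re * e0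
      · simp
        rw [ht]
        linear_combination (-(y.im - z.im)) * hm2 + m.im * e0
    have ht2 : t ^ 2 = 1 := by
      have h3 : (y.re - z.re) ^ 2 + (y.im - z.im) ^ 2 = 1 := by linarith
      rw [ht]
      linear_combination h3 + ((y.re - z.re) ^ 2 + (y.im - z.im) ^ 2) * hm2 -
        (m.re * (y.re - z.re) + m.im * (y.im - z.im)) * e0
    have ht3 : (t - 1) * (t + 1) = 0 := by linear_combination ht2
    rcases mul_eq_zero.1 ht3 with h3 | h3
    · replace h3 : t = 1 := by linarith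
      apply h1
      have : z + Complex.I * m = y := by
        rw [h3] at hyt; push_cast at hyt; linear_combination -hyt
      rw [this]; exact hiy
    · replace h3 : t = -1 := by linarith
      apply h2
      have : z - Complex.I * m = y := by
        rw [h3] at hyt; push_cast at hyt; linear_combination -hyt
      rw [this]; exact hiy
  -- the sign of the distance
  have hsgn : ∀ᶠ n in atTop, 0 < ip m (y - z) * (dist (v n) z ^ 2 - 1) := by
    have h3 : Tendsto (fun n => 2 * ip m (v n - z) - r n) atTop (𝓝 (2 * ip m (y - z) - 0)) :=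
      ((tendsto_ip259 tendsto_const_nhds (hy.sub tendsto_const_nhds)).const_mul 2).sub hr
    have h4 : Tendsto (fun n => ip m (y - z) * (2 * ip m (v n - z) - r n)) atTop
        (𝓝 (ip m (y - z) * (2 * ip m (y - z) - 0))) := h3.const_mul _
    have h5 : 0 < ip m (y - z) * (2 * ip m (y - z) - 0) := by
      have := mul_self_pos.2 hmy
      linarith
    filter_upwards [h4.eventually (Ioi_mem_nhds h5)] with n hn
    have hn : 0 < ip m (y - z) * (2 * ip m (v n - z) - r n) := hn
    have h6 := circle_ip259 (z := z) (hv n)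
    have e1 : z + (r n : ℂ) * m - z = r n * m := by ring
    have e2 : ip ((r n : ℂ) * m) (v n - z) = r n * ip m (v n - z) := by
      unfold ip; simp; ring
    have e3 : ‖(r n : ℂ) * m‖ ^ 2 = r n ^ 2 := by
      rw [norm_mul, hm, mul_one, Complex.norm_real, Real.norm_eq_abs, sq_abs]
    rw [e1, e2, e3] at h6
    have h7 : dist (v n) z ^ 2 - 1 = r n * (2 * ip m (v n - z) - r n) := by linarith
    rw [h7]
    have := mul_pos (hr0 n) hn
    linarith
  refine ⟨hyz, hmy, ?_, hsgn⟩
  by_contra hcon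
  push Not at hcon
  rcases lt_or_gt_of_ne hmy with h3 | h3
  · have h4 : ip a (y - z) < 0 := by
      by_contra h5
      push Not at h5
      have := mul_nonpos_of_nonpos_of_nonneg h3.le h5
      linarith
    obtain ⟨n, h5, h6⟩ := ((hy.eventually (h.mx.near ha hyz h4)).and hsgn).exists
    refine h5 ?_ (hvi n)
    by_contra h7
    push Not at h7
    have h8 : 0 ≤ dist (v n) z ^ 2 - 1 := by nlinarith
    have := mul_nonpos_of_nonpos_of_nonneg h3.le h8
    linarith
  · have h4 : 0 < ip a (y - z) := pos_of_mul_pos_right hcon h3.le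
    obtain ⟨n, h5, h6⟩ := ((hy.eventually (h.mx.far ha hyz h4)).and hsgn).exists
    refine h5 ?_ (hvi n)
    by_contra h7
    push Not at h7
    have h8 : dist (v n) z ^ 2 - 1 ≤ 0 := by nlinarith [dist_nonneg (x := v n) (y := z)]
    have := mul_nonpos_of_nonneg_of_nonpos h3.le h8
    linarith

/-- linear algebra of the wedge lemma -/
theorem wedge_alg259 {α β A1 B1 A2 B2 p q : ℝ} (hα : 0 < α) (hβ : 0 < β) (h1 : 0 < α * A1 + β * B1)
    (h2 : 0 < α * A2 + β * B2) (hA1 : A1 ≤ 0) (hB2 : B2 ≤ 0) (h3 : 0 ≤ p * A1 + q * B1)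
    (h4 : 0 ≤ p * A2 + q * B2) : 0 ≤ p ∧ 0 ≤ q := by
  have hB1 : 0 < B1 := by
    by_contra hcon
    push Not at hcon
    nlinarith
  have hA2 : 0 < A2 := by
    by_contra hcon
    push Not at hcon
    nlinarith
  -- the determinant
  have hD : 0 < B1 * A2 - A1 * B2 := by
    have e1 : -(α * A1) < β * B1 := by linarith
    have e2 : -(β * B2) < α * A2 := by linarith
    have e3 : 0 ≤ -(α * A1) := by nlinarith
    have e4 : 0 ≤ -(β * B2) := by nlinarith
    have e5 : (-(α * A1)) * (-(β * B2)) < (β * B1) * (α * A2) := by nlinarith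
    have e6 : 0 < α * β := mul_pos hα hβ
    have e7 : (α * β) * (A1 * B2) < (α * β) * (B1 * A2) := by nlinarith
    have := lt_of_mul_lt_mul_left e7 e6.le
    linarith
  have hp : 0 ≤ p * (B1 * A2 - A1 * B2) := by
    have e1 : p * (B1 * A2 - A1 * B2) = B1 * (p * A2 + q * B2) + (-B2) * (p * A1 + q * B1) := by
      ring
    rw [e1]
    have := mul_nonneg hB1.le h4
    have := mul_nonneg (neg_nonneg.2 hB2) h3
    linarith
  have hq : 0 ≤ q * (B1 * A2 - A1 * B2) := by
    have e1 : q * (B1 * A2 - A1 * B2) = A2 * (p * A1 + q * B1) + (-A1) * (p * A2 + q * B2) := by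
      ring
    rw [e1]
    have := mul_nonneg hA2.le h3
    have := mul_nonneg (neg_nonneg.2 hA1) h4
    linarith
  exact ⟨nonneg_of_mul_nonneg_left hp hD, nonneg_of_mul_nonneg_left hq hD⟩

/-- **Wedge lemma.** -/
theorem Irr.wedge259 (h : Irr U T) {z m a b : ℂ} {c d : Fin k} (hm : ‖m‖ = 1)
    (ha : Ray (U c) z a) (hb : Ray (U d) z b) {α β : ℝ} (hα : 0 < α) (hβ : 0 < β)
    (hmab : m = α * a + β * b) (hab : cr a b ≠ 0)
    (hw : ∀ p q : ℝ, 0 ≤ p → 0 ≤ q → ‖(p : ℂ) * a + q * b‖ = 1 →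
      tau T z ((p : ℂ) * a + q * b) ⊆ {c, d})
    (h1 : c ∉ Pal U (z + Complex.I * m)) (h2 : c ∉ Pal U (z - Complex.I * m))
    (h3 : d ∉ Pal U (z + Complex.I * m)) (h4 : d ∉ Pal U (z - Complex.I * m)) :
    Ray (U c) z m ∨ Ray (U d) z m := by
  by_contra hcon
  rw [not_or] at hcon
  obtain ⟨r, v, y, hr0, hr, hv, hvc, hy⟩ := h.seq259 hcon.1
  obtain ⟨r', v', y', hr0', hr', hv', hvd, hy'⟩ := h.seq259 hcon.2
  obtain ⟨hyz, hs, hsa, hκ⟩ := h.seq_side259 hm ha hr0 hr hv hvc hy h1 h2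
  obtain ⟨hyz', hs', hsb, hκ'⟩ := h.seq_side259 hm hb hr0' hr' hv' hvd hy' h3 h4
  obtain ⟨s, hse⟩ : ∃ s, s = ip m (y - z) := ⟨_, rfl⟩
  obtain ⟨s', hse'⟩ : ∃ s', s' = ip m (y' - z) := ⟨_, rfl⟩
  rw [← hse] at hs hsa hκ
  rw [← hse'] at hs' hsb hκ'
  have hlin : ∀ x Y : ℂ, ∀ p q : ℝ, x = (p : ℂ) * a + q * b → ip x Y = p * ip a Y + q * ip b Y := by
    rintro x Y p q rfl
    unfold ip
    simp only [Complex.add_re, Complex.add_im, Complex.mul_re, Complex.mul_im, Complex.ofReal_re,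
      Complex.ofReal_im]
    ring
  have e1 := hlin m (y - z) α β hmab
  have e2 := hlin m (y' - z) α β hmab
  rw [← hse] at e1
  rw [← hse'] at e2
  have hs2 : 0 < s * s := mul_self_pos.2 hs
  have hs2' : 0 < s' * s' := mul_self_pos.2 hs'
  have g1 : 0 < α * (s * ip a (y - z)) + β * (s * ip b (y - z)) := by
    have : α * (s * ip a (y - z)) + β * (s * ip b (y - z)) = s * s := by rw [e1]; ring
    rw [this]; exact hs2
  have g2 : 0 < α * (s' * ip a (y' - z)) + β * (s' * ip b (y' - z)) := by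
    have : α * (s' * ip a (y' - z)) + β * (s' * ip b (y' - z)) = s' * s' := by rw [e2]; ring
    rw [this]; exact hs2'
  -- the centres are not collinear with `z`
  have hnc : ∀ ε : ℝ, (ε = 1 ∨ ε = -1) → y' - z ≠ ε * (y - z) := by
    intro ε hε hcc
    have e3 : ∀ w : ℂ, ip w (y' - z) = ε * ip w (y - z) := by
      intro w
      rw [hcc]
      unfold ip
      simp only [Complex.mul_re, Complex.mul_im, Complex.ofReal_re, Complex.ofReal_im]
      ring
    have e4 : s' = ε * s := by rw [hse', e3, hse]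
    have e5 : s' * ip b (y' - z) = s * ip b (y - z) := by
      rw [e4, e3]
      rcases hε with rfl | rfl <;> ring
    rw [e5] at hsb
    nlinarith
  have hcr : cr (y - z) (y' - z) ≠ 0 := by
    intro h0
    have hY := (dist_eq_one_iff y z).1 hyz
    have hY' := (dist_eq_one_iff y' z).1 hyz'
    unfold cr at h0
    simp only [Complex.sub_re, Complex.sub_im] at h0
    obtain ⟨t, ht⟩ : ∃ t : ℝ, t = (y.re - z.re) * (y'.re - z.re) + (y.im - z.im) * (y'.im - z.im) :=
      ⟨_, rfl⟩
    have hyt : y' - z = t * (y - z) := by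
      apply Complex.ext
      · simp
        rw [ht]
        linear_combination (-(y'.re - z.re)) * hY - (y.im - z.im) * h0
      · simp
        rw [ht]
        linear_combination (-(y'.im - z.im)) * hY + (y.re - z.re) * h0
    have ht2 : (t - 1) * (t + 1) = 0 := by
      rw [ht]
      linear_combination (((y'.re - z.re)) ^ 2 + (y'.im - z.im) ^ 2) * hY + hY' -
        ((y.re - z.re) * (y'.im - z.im) - (y.im - z.im) * (y'.re - z.re)) * h0
    rcases mul_eq_zero.1 ht2 with h5 | h5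
    · refine hnc 1 (Or.inl rfl) ?_
      rw [hyt, show t = 1 by linarith]
    · refine hnc (-1) (Or.inr rfl) ?_
      rw [hyt, show t = -1 by linarith]
  obtain ⟨x, hx, hxe⟩ := tendsto_cp259 hyz hyz' hcr hy hy'
  -- the common points are different from `z`
  have hxz : ∀ᶠ n in atTop, x n ≠ z := by
    filter_upwards [hxe, hκ] with n h5 h6 h7
    have h8 := circle_ip259 (z := z) h5.1
    rw [h7, sub_self] at h8
    have h9 : ip 0 (v n - z) = 0 := by unfold ip; simp
    rw [h9, norm_zero] at h8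
    have : dist (v n) z ^ 2 - 1 = 0 := by linarith
    rw [this, mul_zero] at h6
    exact lt_irrefl _ h6
  -- directions
  obtain ⟨e, he⟩ : ∃ e : ℕ → ℂ, e = fun n => ((‖x n - z‖⁻¹ : ℝ) : ℂ) * (x n - z) := ⟨_, rfl⟩
  have hen : ∀ᶠ n in atTop, e n ∈ sphere (0 : ℂ) 1 := by
    filter_upwards [hxz] with n h5
    rw [mem_sphere_zero_iff_norm, he]
    simp only
    rw [norm_mul, Complex.norm_real, norm_inv, norm_norm,
      inv_mul_cancel₀ (norm_ne_zero_iff.2 (sub_ne_zero.2 h5))]
  obtain ⟨w, hw1, φ, hφ, hφw⟩ := (isCompact_sphere (0 : ℂ) 1).tendsto_subseq' hen.frequently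
  have hwn : ‖w‖ = 1 := mem_sphere_zero_iff_norm.1 hw1
  have hφt := hφ.tendsto_atTop
  -- the limit direction is in the closed wedge
  have side : ∀ (s : ℝ) (v : ℕ → ℂ) (y : ℂ), Tendsto v atTop (𝓝 y) →
      (∀ᶠ n in atTop, dist (x n) (v n) = 1) → (∀ᶠ n in atTop, 0 < s * (dist (v n) z ^ 2 - 1)) →
      0 ≤ s * ip w (y - z) := by
    intro s v y hy hd hk
    have l1 : Tendsto (fun n => s * (2 * ip (e (φ n)) (v (φ n) - z))) atTop
        (𝓝 (s * (2 * ip w (y - z)))) :=
      ((tendsto_ip259 hφw ((hy.comp hφt).sub tendsto_const_nhds)).const_mul 2).const_mul s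
    have l2 : Tendsto (fun n => -(|s| * ‖x (φ n) - z‖)) atTop (𝓝 (-(|s| * ‖z - z‖))) :=
      (((((hx.comp hφt).sub tendsto_const_nhds).norm).const_mul |s|)).neg
    rw [sub_self, norm_zero, mul_zero, neg_zero] at l2
    have l3 : 0 ≤ s * (2 * ip w (y - z)) := by
      refine le_of_tendsto_of_tendsto l2 l1 ?_
      filter_upwards [hφt.eventually hd, hφt.eventually hk, hφt.eventually hxz] with n h5 h6 h7
      have h8 := circle_ip259 (z := z) h5
      have hρ : 0 < ‖x (φ n) - z‖ := norm_pos_iff.2 (sub_ne_zero.2 h7)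
      obtain ⟨ρ, hρe⟩ : ∃ ρ, ρ = ‖x (φ n) - z‖ := ⟨_, rfl⟩
      rw [← hρe] at h8 hρ
      have e3 : ρ * ip (e (φ n)) (v (φ n) - z) = ip (x (φ n) - z) (v (φ n) - z) := by
        rw [he]
        simp only
        rw [← hρe]
        unfold ip
        simp only [Complex.mul_re, Complex.mul_im, Complex.ofReal_re, Complex.ofReal_im]
        field_simp
        ring
      show -(|s| * ‖x (φ n) - z‖) ≤ s * (2 * ip (e (φ n)) (v (φ n) - z))
      rw [← hρe]
      have e4 : ρ * (s * (2 * ip (e (φ n)) (v (φ n) - z))) =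
          s * ρ ^ 2 + s * (dist (v (φ n)) z ^ 2 - 1) := by
        rw [show ρ * (s * (2 * ip (e (φ n)) (v (φ n) - z))) =
          s * (2 * (ρ * ip (e (φ n)) (v (φ n) - z))) by ring, e3, h8]
        ring
      have e5 : -|s| ≤ s := neg_abs_le s
      have e6 : ρ * (-(|s| * ρ)) ≤ ρ * (s * (2 * ip (e (φ n)) (v (φ n) - z))) := by
        rw [e4]
        nlinarith [mul_pos hρ hρ]
      exact le_of_mul_le_mul_left e6 hρ
    linarith
  have hsw := side s v y hy (hxe.mono fun n hn => hn.1) hκ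
  have hsw' := side s' v' y' hy' (hxe.mono fun n hn => hn.2) hκ'
  -- coordinates of the limit direction
  obtain ⟨p, hp⟩ : ∃ p : ℝ, p = cr w b / cr a b := ⟨_, rfl⟩
  obtain ⟨q, hq⟩ : ∃ q : ℝ, q = cr a w / cr a b := ⟨_, rfl⟩
  have hwpq : w = (p : ℂ) * a + q * b := by
    have hab' : a.re * b.im - a.im * b.re ≠ 0 := hab
    have hp' : p * (a.re * b.im - a.im * b.re) = w.re * b.im - w.im * b.re := by
      rw [hp]; exact div_mul_cancel₀ _ hab'
    have hq' : q * (a.re * b.im - a.im * b.re) = a.re * w.im - a.im * w.re := by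
      rw [hq]; exact div_mul_cancel₀ _ hab'
    apply Complex.ext
    · simp only [Complex.add_re, Complex.mul_re, Complex.ofReal_re, Complex.ofReal_im]
      apply mul_right_cancel₀ hab'
      linear_combination (-a.re) * hp' - b.re * hq'
    · simp only [Complex.add_im, Complex.mul_im, Complex.ofReal_re, Complex.ofReal_im]
      apply mul_right_cancel₀ hab'
      linear_combination (-a.im) * hp' - b.im * hq'
  have k1 := hlin w (y - z) p q hwpq
  have k2 := hlin w (y' - z) p q hwpq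
  obtain ⟨hp0, hq0⟩ := wedge_alg259 hα hβ g1 g2 hsa hsb (p := p) (q := q)
    (by rw [k1] at hsw; linarith) (by rw [k2] at hsw'; linarith)
  have htau : tau T z w ⊆ {c, d} := by
    rw [hwpq]
    exact hw p q hp0 hq0 (by rw [← hwpq]; exact hwn)
  -- the common points are near the direction `w`
  obtain ⟨ε, hε, hnap⟩ := H158.nap_near_dir (z := z) hwn (tau_le_iff.1 htau)
  have hTx : ∀ᶠ n in atTop, T (x (φ n)) ⊆ {c, d} := by
    have l1 : Tendsto (fun n => ‖x (φ n) - z‖) atTop (𝓝 ‖z - z‖) :=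
      ((hx.comp hφt).sub tendsto_const_nhds).norm
    rw [sub_self, norm_zero] at l1
    have l2 : Tendsto (fun n => ‖e (φ n) - w‖) atTop (𝓝 ‖w - w‖) :=
      (hφw.sub tendsto_const_nhds).norm
    rw [sub_self, norm_zero] at l2
    filter_upwards [l1.eventually (Iio_mem_nhds hε), l2.eventually (Iio_mem_nhds hε),
      hφt.eventually hxz] with n h5 h6 h7
    have hρ : 0 < ‖x (φ n) - z‖ := norm_pos_iff.2 (sub_ne_zero.2 h7)
    have h8 := hnap ‖x (φ n) - z‖ hρ h5 (x (φ n) - z) (by
      have e3 : x (φ n) - z - (‖x (φ n) - z‖ : ℂ) * w = (‖x (φ n) - z‖ : ℂ) * (e (φ n) - w) := by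
        rw [he]
        simp only
        push_cast
        have : (‖x (φ n) - z‖ : ℂ) ≠ 0 := by exact_mod_cast hρ.ne'
        field_simp
      rw [e3, norm_mul, Complex.norm_real, norm_norm, mul_comm ε]
      exact mul_lt_mul_of_pos_left h6 hρ)
    have e4 : z + (x (φ n) - z) = x (φ n) := by ring
    rwa [e4] at h8
  -- Lemma B
  have hB : ∀ᶠ n in atTop, v' (φ n) = v (φ n) ∨ v' (φ n) + v (φ n) = 2 * x (φ n) := by
    filter_upwards [hTx, hφt.eventually hxe] with n h5 h6
    exact h.lemmaB h5 h6.1 h6.2 (hvc _) (hvd _)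
  rcases (Filter.frequently_or_distrib.1 hB.frequently) with h5 | h5
  · have l1 : Tendsto (fun n => v' (φ n) - v (φ n)) atTop (𝓝 (y' - y)) :=
      (hy'.comp hφt).sub (hy.comp hφt)
    have l2 : y' - y = 0 := by
      by_contra hne
      obtain ⟨n, h6, h7⟩ := (h5.and_eventually (l1.eventually (isOpen_ne.mem_nhds hne))).exists
      exact h7 (by rw [h6, sub_self])
    refine hnc 1 (Or.inl rfl) ?_
    push_cast
    linear_combination l2
  · have l1 : Tendsto (fun n => v' (φ n) + v (φ n) - 2 * x (φ n)) atTop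
        (𝓝 (y' + y - 2 * z)) :=
      ((hy'.comp hφt).add (hy.comp hφt)).sub ((hx.comp hφt).const_mul 2)
    have l2 : y' + y - 2 * z = 0 := by
      by_contra hne
      obtain ⟨n, h6, h7⟩ := (h5.and_eventually (l1.eventually (isOpen_ne.mem_nhds hne))).exists
      exact h7 (by rw [h6, sub_self])
    refine hnc (-1) (Or.inr rfl) ?_
    push_cast
    linear_combination l2

end Vale.Agent.P032.Six
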